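import Vale.Agent.P235.R2.H718.DescSpec

/-!
# One map at a variable scale, from padded partitions (helper718)
-/

set_option autoImplicit false

namespace Vale.Agent.P235.Kpr

open Finset Vale.Agent.P235

/-- fixed scale -/
theorem fixedScale (hP : RowPad) {V : Type} [Finite V] {G : SimpleGraph V} {ℓ : Sym2 V → ℝ}
    (hc : G.Connected) (hpl : ∃ σ : Equiv.Perm G.Dart, PlaneMap G σ)
    (hℓ : ∀ e ∈ G.edgeSet, 0 < ℓ e) {W : V → ℝ} (hW0 : ∀ v, 0 ≤ W v)
    (hW : ∀ u v, G.Adj u v → |W u - W v| ≤ ℓ s(u, v)) {Δ : ℝ} (hΔ : 0 < Δ) :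
    ∃ N : V → V → ℝ, IsSq N ∧ (∀ u v, G.Adj u v → N u v ≤ 2 * ℓ s(u, v) ^ 2) ∧
      (∀ u v, W u = 0 → W v = 0 → N u v = 0) ∧
      ∀ x y, 52 * Δ < pathDist G ℓ x y → min (W x) (Δ / 24) ^ 2 ≤ 2 * N x y := by
  classical
  have := Fintype.ofFinite V
  have hd := pathDist_isMet hc hℓ
  obtain ⟨c, hc1, hc2⟩ := hP V G ℓ hc hpl hℓ Δ 12 hΔ (by norm_num)
  let Ω := Fin 12 × Fin 12 × Fin 12
  have hne : Nonempty V := hc.nonempty
  let q : Ω → V → V → ℝ := fun ω v w =>
    if c ω w = c ω v then W v else min (W v) (pathDist G ℓ v w)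
  let p : Ω → V → ℝ := fun ω v => Finset.univ.inf' Finset.univ_nonempty (q ω v)
  have hq0 : ∀ ω v w, 0 ≤ q ω v w := by
    intro ω v w
    show 0 ≤ (if c ω w = c ω v then W v else min (W v) (pathDist G ℓ v w))
    split_ifs
    · exact hW0 v
    · exact le_min (hW0 v) (hd.nonneg v w)
  have hp0 : ∀ ω v, 0 ≤ p ω v := fun ω v =>
    Finset.le_inf' _ _ fun w _ => hq0 ω v w
  have hpq : ∀ ω v w, p ω v ≤ q ω v w := fun ω v w => Finset.inf'_le _ (Finset.mem_univ w)
  have hpW : ∀ ω v, p ω v ≤ W v := fun ω v => (hpq ω v v).trans (le_of_eq (if_pos rfl))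
  have hadj : ∀ u v, G.Adj u v → pathDist G ℓ u v ≤ ℓ s(u, v) := fun u v huv =>
    pathDist_adj hℓ huv
  have hlip : ∀ ω u v, G.Adj u v → c ω u = c ω v → p ω u ≤ p ω v + ℓ s(u, v) := by
    intro ω u v huv hcc
    have h1 := hW u v huv
    rw [abs_le] at h1
    have h0 : p ω u - ℓ s(u, v) ≤ p ω v := by
      refine Finset.le_inf' _ _ fun w _ => ?_
      have h2 := hpq ω u w
      have h3 : q ω u w ≤ q ω v w + ℓ s(u, v) := by
        show (if c ω w = c ω u then W u else min (W u) (pathDist G ℓ u w)) ≤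
          (if c ω w = c ω v then W v else min (W v) (pathDist G ℓ v w)) + ℓ s(u, v)
        by_cases hw : c ω w = c ω u
        · rw [if_pos hw, if_pos (hw.trans hcc)]
          linarith
        · rw [if_neg hw, if_neg (fun h => hw (h.trans hcc.symm))]
          have h4 := hd.tri u v w
          have h5 := hadj u v huv
          rcases min_cases (W v) (pathDist G ℓ v w) with ⟨h6, _⟩ | ⟨h6, _⟩
          · rw [h6]
            exact (min_le_left _ _).trans (by linarith)
          · rw [h6]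
            exact (min_le_right _ _).trans (by linarith)
      linarith
    linarith
  have hcross : ∀ ω u v, G.Adj u v → c ω u ≠ c ω v → p ω u ≤ ℓ s(u, v) := by
    intro ω u v huv hcc
    refine (hpq ω u v).trans ?_
    show (if c ω v = c ω u then W u else min (W u) (pathDist G ℓ u v)) ≤ _
    rw [if_neg (Ne.symm hcc)]
    exact (min_le_right _ _).trans (hadj u v huv)
  have hpad : ∀ ω x, ¬ (∃ v, pathDist G ℓ x v ≤ Δ / 24 ∧ c ω x ≠ c ω v) →
      min (W x) (Δ / 24) ≤ p ω x := by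
    intro ω x hx
    refine Finset.le_inf' _ _ fun w _ => ?_
    show _ ≤ (if c ω w = c ω x then W x else min (W x) (pathDist G ℓ x w))
    by_cases hw : c ω w = c ω x
    · rw [if_pos hw]
      exact min_le_left _ _
    · rw [if_neg hw]
      have h1 : Δ / 24 ≤ pathDist G ℓ x w := by
        by_contra h
        push Not at h
        exact hx ⟨w, h.le, Ne.symm hw⟩
      exact min_le_min le_rfl h1
  let g : Ω → V → V → ℝ := fun ω z a => if c ω a = z then p ω a else 0
  have hsame : ∀ ω a b, c ω a = c ω b →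
      ∑ z, (g ω z a - g ω z b) ^ 2 = (p ω a - p ω b) ^ 2 := by
    intro ω a b hab
    rw [Finset.sum_eq_single (c ω a)]
    · show ((if c ω a = c ω a then p ω a else 0) - (if c ω b = c ω a then p ω b else 0)) ^ 2 = _
      rw [if_pos rfl, if_pos hab.symm]
    · intro z _ hz
      show ((if c ω a = z then p ω a else 0) - (if c ω b = z then p ω b else 0)) ^ 2 = _
      rw [if_neg (Ne.symm hz), if_neg (fun h => hz (h.symm.trans hab.symm))]
      ring
    · intro h
      exact absurd (Finset.mem_univ _) h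
  have hdiff : ∀ ω a b, c ω a ≠ c ω b →
      ∑ z, (g ω z a - g ω z b) ^ 2 = p ω a ^ 2 + p ω b ^ 2 := by
    intro ω a b hab
    have h1 : ∀ z, (g ω z a - g ω z b) ^ 2 =
        (if c ω a = z then p ω a ^ 2 else 0) + (if c ω b = z then p ω b ^ 2 else 0) := by
      intro z
      show ((if c ω a = z then p ω a else 0) - (if c ω b = z then p ω b else 0)) ^ 2 = _
      by_cases h2 : c ω a = z
      · have h3 : c ω b ≠ z := fun h => hab (h2.trans h.symm)
        simp only [if_pos h2, if_neg h3]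
        ring
      · simp only [if_neg h2]
        split_ifs <;> ring
    rw [Finset.sum_congr rfl fun z _ => h1 z, Finset.sum_add_distrib,
      Finset.sum_ite_eq, Finset.sum_ite_eq, if_pos (Finset.mem_univ _), if_pos (Finset.mem_univ _)]
  have hN : ∀ a b : V, ∑ i : Ω × V, (1 / 1728 : ℝ) * (g i.1 i.2 a - g i.1 i.2 b) ^ 2 =
      1 / 1728 * ∑ ω : Ω, ∑ z, (g ω z a - g ω z b) ^ 2 := by
    intro a b
    rw [← Finset.mul_sum, Fintype.sum_prod_type]
  have hcard : Fintype.card Ω = 1728 := by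
    show Fintype.card (Fin 12 × Fin 12 × Fin 12) = 1728
    simp [Fintype.card_prod]
  refine ⟨fun a b => ∑ i : Ω × V, (1 / 1728 : ℝ) * (g i.1 i.2 a - g i.1 i.2 b) ^ 2,
    ⟨Ω × V, inferInstance, fun _ => 1 / 1728, fun i => g i.1 i.2, fun _ => by norm_num,
      fun _ _ => rfl⟩, ?_, ?_, ?_⟩
  · intro u v huv
    have hl := hℓ s(u, v) huv
    show ∑ i : Ω × V, (1 / 1728 : ℝ) * (g i.1 i.2 u - g i.1 i.2 v) ^ 2 ≤ _
    rw [hN]
    have h1 : ∀ ω : Ω, ∑ z, (g ω z u - g ω z v) ^ 2 ≤ 2 * ℓ s(u, v) ^ 2 := by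
      intro ω
      by_cases h : c ω u = c ω v
      · rw [hsame ω u v h]
        have a1 := hlip ω u v huv h
        have a2 := hlip ω v u huv.symm h.symm
        rw [Sym2.eq_swap] at a2
        have a3 : (p ω u - p ω v) ^ 2 ≤ ℓ s(u, v) ^ 2 := by
          apply sq_le_sq'
          · linarith
          · linarith
        have a4 := sq_nonneg (ℓ s(u, v))
        linarith
      · rw [hdiff ω u v h]
        have a1 := hcross ω u v huv h
        have a2 := hcross ω v u huv.symm (Ne.symm h)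
        rw [Sym2.eq_swap] at a2
        have a3 := pow_le_pow_left₀ (hp0 ω u) a1 2
        have a4 := pow_le_pow_left₀ (hp0 ω v) a2 2
        linarith
    have h2 : ∑ ω : Ω, ∑ z, (g ω z u - g ω z v) ^ 2 ≤ 1728 * (2 * ℓ s(u, v) ^ 2) := by
      refine (Finset.sum_le_sum fun ω _ => h1 ω).trans (le_of_eq ?_)
      rw [Finset.sum_const, Finset.card_univ, hcard, nsmul_eq_mul]
      norm_num
    linarith
  · intro u v hu hv
    show ∑ i : Ω × V, (1 / 1728 : ℝ) * (g i.1 i.2 u - g i.1 i.2 v) ^ 2 = 0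
    rw [hN]
    have h1 : ∀ ω : Ω, ∑ z, (g ω z u - g ω z v) ^ 2 = 0 := by
      intro ω
      have a1 : p ω u = 0 := le_antisymm ((hpW ω u).trans (le_of_eq hu)) (hp0 ω u)
      have a2 : p ω v = 0 := le_antisymm ((hpW ω v).trans (le_of_eq hv)) (hp0 ω v)
      by_cases h : c ω u = c ω v
      · rw [hsame ω u v h, a1, a2]; ring
      · rw [hdiff ω u v h, a1, a2]; ring
    rw [Finset.sum_congr rfl fun ω _ => h1 ω]
    simp
  · intro x y hxy
    show _ ≤ 2 * ∑ i : Ω × V, (1 / 1728 : ℝ) * (g i.1 i.2 x - g i.1 i.2 y) ^ 2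
    rw [hN]
    set m := min (W x) (Δ / 24) with hm
    have hm0 : 0 ≤ m := le_min (hW0 x) (by linarith)
    have hcut : ∀ ω, c ω x ≠ c ω y := fun ω h => absurd (hc1 ω x y h) (not_le.2 hxy)
    have hbad := hc2 x (Δ / 24) (by linarith)
    have hb2 : 3 * ((12 : ℕ) : ℝ) ^ 3 * (2 * (Δ / 24) / Δ + 1 / ((12 : ℕ) : ℝ)) = 864 := by
      field_simp
      norm_num
    rw [hb2] at hbad
    let B : Finset Ω := Finset.univ.filter fun ω => ∃ v, pathDist G ℓ x v ≤ Δ / 24 ∧ c ω x ≠ c ω v
    have hBcard : (B.card : ℝ) ≤ 864 := by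
      have e : ({ω | ∃ v, pathDist G ℓ x v ≤ Δ / 24 ∧ c ω x ≠ c ω v} : Set Ω) = (B : Set Ω) := by
        ext ω
        simp [B]
      rw [e, Set.ncard_coe_finset] at hbad
      exact hbad
    have hgood : ((Finset.univ \ B).card : ℝ) ≥ 864 := by
      have h1 : (Finset.univ \ B).card + B.card = 1728 := by
        rw [← hcard, ← Finset.card_univ]
        exact Finset.card_sdiff_add_card_eq_card (Finset.subset_univ B)
      have h2 : ((Finset.univ \ B).card : ℝ) + B.card = 1728 := by exact_mod_cast h1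
      linarith
    have h1 : ∑ ω ∈ Finset.univ \ B, m ^ 2 ≤ ∑ ω : Ω, ∑ z, (g ω z x - g ω z y) ^ 2 := by
      refine (Finset.sum_le_sum fun ω hω => ?_).trans
        (Finset.sum_le_sum_of_subset_of_nonneg (Finset.subset_univ (Finset.univ \ B))
          fun ω _ _ => Finset.sum_nonneg fun z _ => sq_nonneg _)
      rw [hdiff ω x y (hcut ω)]
      have hω' : ¬ (∃ v, pathDist G ℓ x v ≤ Δ / 24 ∧ c ω x ≠ c ω v) := by
        intro h
        have := (Finset.mem_sdiff.1 hω).2
        exact this (Finset.mem_filter.2 ⟨Finset.mem_univ _, h⟩)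
      have h2 := pow_le_pow_left₀ hm0 (hpad ω x hω') 2
      have h3 := sq_nonneg (p ω y)
      linarith
    rw [Finset.sum_const, nsmul_eq_mul] at h1
    have h3 := mul_le_mul_of_nonneg_right hgood (sq_nonneg m)
    linarith

/-- (M) -/
theorem rowVar (hP : RowPad) : RowVar := by
  intro V _ G ℓ hc hpl hℓ τ hτ0 hτ
  classical
  have := Fintype.ofFinite V
  have hd := pathDist_isMet hc hℓ
  let W : ℤ → V → ℝ := fun m v => max 0 (min (τ v - (2 : ℝ) ^ (m - 1)) ((2 : ℝ) ^ (m + 2) - τ v))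
  have hW0 : ∀ m v, 0 ≤ W m v := fun m v => le_max_left _ _
  have hW1 : ∀ m u v, G.Adj u v → W m u ≤ W m v + ℓ s(u, v) := by
    intro m u v huv
    have h := hτ u v huv
    have hl := hℓ s(u, v) huv
    rw [abs_le] at h
    refine max_le (by linarith [hW0 m v]) ?_
    have h1 : min (τ v - (2 : ℝ) ^ (m - 1)) ((2 : ℝ) ^ (m + 2) - τ v) ≤ W m v := le_max_right _ _
    rcases min_cases (τ v - (2 : ℝ) ^ (m - 1)) ((2 : ℝ) ^ (m + 2) - τ v) with ⟨h6, _⟩ | ⟨h6, _⟩
    · rw [h6] at h1
      exact (min_le_left _ _).trans (by linarith)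
    · rw [h6] at h1
      exact (min_le_right _ _).trans (by linarith)
  have hWl : ∀ m u v, G.Adj u v → |W m u - W m v| ≤ ℓ s(u, v) := by
    intro m u v huv
    have h1 := hW1 m u v huv
    have h2 := hW1 m v u huv.symm
    rw [Sym2.eq_swap] at h2
    rw [abs_le]
    constructor <;> linarith
  have hF := fun m : ℤ => fixedScale hP hc hpl hℓ (hW0 m) (hWl m) (Δ := (2 : ℝ) ^ m / 1000)
    (by positivity)
  choose N hN1 hN2 hN3 hN4 using hF
  let M : Finset ℤ := Finset.univ.image fun v => Int.log 2 (τ v)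
  refine ⟨fun a b => ∑ m ∈ M, N m a b, IsSq.sum M (fun m => N m) fun m _ => hN1 m, ?_, ?_⟩
  · intro u v huv
    show ∑ m ∈ M, N m u v ≤ _
    let S : V → Finset ℤ := fun v =>
      {Int.log 2 (τ v) - 1, Int.log 2 (τ v), Int.log 2 (τ v) + 1}
    have hS : ∀ m v, m ∉ S v → W m v = 0 := by
      intro m v hm
      by_contra hne
      have hpos : 0 < W m v := lt_of_le_of_ne (hW0 m v) (Ne.symm hne)
      have h1 : 0 < min (τ v - (2 : ℝ) ^ (m - 1)) ((2 : ℝ) ^ (m + 2) - τ v) := by
        rcases lt_max_iff.1 hpos with h | h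
        · exact absurd h (lt_irrefl _)
        · exact h
      obtain ⟨h2, h3⟩ := lt_min_iff.1 h1
      have hp : (0 : ℝ) < (2 : ℝ) ^ (m - 1) := by positivity
      have hτp : 0 < τ v := by linarith
      have h4 : (2 : ℝ) ^ (Int.log 2 (τ v)) ≤ τ v :=
        Int.zpow_log_le_self (by norm_num) hτp
      have h5 : τ v < (2 : ℝ) ^ (Int.log 2 (τ v) + 1) :=
        Int.lt_zpow_succ_log_self (by norm_num) (τ v)
      have h6 : m - 1 < Int.log 2 (τ v) + 1 := by
        have : (2 : ℝ) ^ (m - 1) < (2 : ℝ) ^ (Int.log 2 (τ v) + 1) := by linarith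
        exact (zpow_lt_zpow_iff_right₀ (by norm_num)).1 this
      have h7 : Int.log 2 (τ v) < m + 2 := by
        have : (2 : ℝ) ^ (Int.log 2 (τ v)) < (2 : ℝ) ^ (m + 2) := by linarith
        exact (zpow_lt_zpow_iff_right₀ (by norm_num)).1 this
      apply hm
      simp only [S, Finset.mem_insert, Finset.mem_singleton]
      omega
    have h1 : ∀ m ∈ M, N m u v ≤ if m ∈ S u ∪ S v then 2 * ℓ s(u, v) ^ 2 else 0 := by
      intro m _
      split_ifs with h
      · exact hN2 m u v huv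
      · rw [Finset.mem_union, not_or] at h
        exact (hN3 m u v (hS m u h.1) (hS m v h.2)).le
    refine (Finset.sum_le_sum h1).trans ?_
    rw [Finset.sum_ite_mem, Finset.sum_const, nsmul_eq_mul]
    have h2 : (M ∩ (S u ∪ S v)).card ≤ 6 := by
      refine (Finset.card_le_card Finset.inter_subset_right).trans
        ((Finset.card_union_le _ _).trans ?_)
      have a1 : (S u).card ≤ 3 := Finset.card_le_three
      have a2 : (S v).card ≤ 3 := Finset.card_le_three
      omega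
    have h3 : ((M ∩ (S u ∪ S v)).card : ℝ) ≤ 6 := by exact_mod_cast h2
    have h4 : 0 ≤ 2 * ℓ s(u, v) ^ 2 := by positivity
    nlinarith [mul_le_mul_of_nonneg_right h3 h4]
  · intro x y hx hxy
    show _ ≤ 10 ^ 10 * ∑ m ∈ M, N m x y
    have h1 : (2 : ℝ) ^ (Int.log 2 (τ x)) ≤ τ x := Int.zpow_log_le_self (by norm_num) hx
    have h2 : τ x < (2 : ℝ) ^ (Int.log 2 (τ x) + 1) :=
      Int.lt_zpow_succ_log_self (by norm_num) (τ x)
    set L := Int.log 2 (τ x) with hL
    have hp : (0 : ℝ) < (2 : ℝ) ^ L := by positivity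
    have e1 : (2 : ℝ) ^ (L + 1) = 2 * (2 : ℝ) ^ L := by
      rw [zpow_add₀ (by norm_num)]; ring
    have e2 : (2 : ℝ) ^ (L + 2) = 4 * (2 : ℝ) ^ L := by
      rw [zpow_add₀ (by norm_num)]; norm_num; ring
    have e3 : (2 : ℝ) ^ (L - 1) = (2 : ℝ) ^ L / 2 := by
      rw [zpow_sub₀ (by norm_num)]; norm_num
    rw [e1] at h2
    have h3 : 52 * ((2 : ℝ) ^ L / 1000) < pathDist G ℓ x y := by linarith
    have h4 := hN4 L x y h3
    have h5 : τ x / 48000 ≤ min (W L x) ((2 : ℝ) ^ L / 1000 / 24) := by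
      refine le_min ?_ (by linarith)
      refine le_trans (le_min ?_ ?_) (le_max_right _ _)
      · rw [e3]; linarith
      · rw [e2]; linarith
    have h6 : (τ x / 48000) ^ 2 ≤ 2 * N L x y :=
      (pow_le_pow_left₀ (by positivity) h5 2).trans h4
    have h7 : N L x y ≤ ∑ m ∈ M, N m x y :=
      Finset.single_le_sum (f := fun m => N m x y) (fun m _ => (hN1 m).nonneg x y)
        (Finset.mem_image.2 ⟨x, Finset.mem_univ _, rfl⟩)
    have h8 := (hN1 L).nonneg x y
    have e4 : (τ x / 48000) ^ 2 = τ x ^ 2 / 2304000000 := by ring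
    rw [e4] at h6
    linarith

end Vale.Agent.P235.Kpr
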