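import Vale.Agent.P235.R2.H718.S2

/-!
# Rounds relative to one metric, square root bound: the embedding (helper718)
-/

namespace Vale.Agent.P235.H718

open Finset Vale.Agent.P235

variable {V : Type} [Finite V] {G : SimpleGraph V} {ℓ : Sym2 V → ℝ}

theorem pointed2D_embeds {k K : ℝ} (hk : 0 ≤ k) (hK : 0 < K) (hc : G.Connected)
    (hℓ : ∀ e ∈ G.edgeSet, 0 < ℓ e)
    (h : ∀ H : V → ℝ, (∀ v, 0 < H v) → (∀ u v, G.Adj u v → |H u - H v| ≤ ℓ s(u, v)) →
      Pointed2D G ℓ H (pathDist G ℓ) k K) :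
    EmbedsL1 (pathDist G ℓ) (48000 * √k + 16000 * K) := by
  have := Fintype.ofFinite V
  have hd := pathDist_isMet hc hℓ
  obtain ⟨R, hR0, hR⟩ : ∃ R : ℝ, 0 < R ∧ ∀ x y, pathDist G ℓ x y ≤ R := by
    refine ⟨∑ x, ∑ y, pathDist G ℓ x y + 1, ?_, ?_⟩
    · have : 0 ≤ ∑ x, ∑ y, pathDist G ℓ x y :=
        Finset.sum_nonneg fun x _ => Finset.sum_nonneg fun y _ => hd.nonneg x y
      linarith
    intro x y
    have e1 : pathDist G ℓ x y ≤ ∑ y, pathDist G ℓ x y :=
      Finset.single_le_sum (f := fun y => pathDist G ℓ x y) (fun y _ => hd.nonneg x y)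
        (Finset.mem_univ y)
    have e2 : ∑ y, pathDist G ℓ x y ≤ ∑ x, ∑ y, pathDist G ℓ x y :=
      Finset.single_le_sum (f := fun x => ∑ y, pathDist G ℓ x y)
        (fun x _ => Finset.sum_nonneg fun y _ => hd.nonneg x y) (Finset.mem_univ x)
    linarith
  obtain ⟨N, σ, hN, h1, h2, -, -, h5⟩ := h (fun _ => R)
    (fun _ => hR0) (fun u v huv => by
      rw [sub_self, abs_zero]; exact (hℓ _ huv).le)
  obtain ⟨F, hF, hFN⟩ := hN.toL1
  have hK' : 0 < 48000 * √k + 16000 * K := by
    have := Real.sqrt_nonneg k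
    linarith
  have hI := ((hF.comap (some : V → Option V)).smul (by norm_num : (0 : ℝ) ≤ 48000)).add
    ((h1.comap (some : V → Option V)).smul (by norm_num : (0 : ℝ) ≤ 16000))
  refine hI.embeds (fun x y => ?_) (pathDist_semi hc hK' (fun x => hI.self x)
    (fun x y z => hI.tri x y z) fun u v huv => ?_)
  · show pathDist G ℓ x y ≤ 48000 * F (some x) (some y) + 16000 * σ (some x) (some y)
    have nF := hF.nonneg (some x) (some y)
    have nσ := h1.nonneg (some x) (some y)
    rcases (hd.nonneg x y).eq_or_lt with h0 | h0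
    · linarith
    rcases h5 x y (pathDist G ℓ x y / 8) (by linarith) (by linarith [hR x y])
      (by linarith [hR x y]) (by linarith) with h6 | h6
    · have h7 := (hFN (some x) (some y)).2
      have h8 : pathDist G ℓ x y / 8 ≤ 3000 * √(N (some x) (some y)) := by
        have e : 3000 * √(N (some x) (some y)) = √(9000000 * N (some x) (some y)) := by
          rw [Real.sqrt_mul (by norm_num), show (9000000 : ℝ) = 3000 ^ 2 by norm_num,
            Real.sqrt_sq (by norm_num)]
        rw [e]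
        exact Real.le_sqrt_of_sq_le h6
      linarith
    · linarith
  · have hl0 := hℓ s(u, v) huv
    have h6 := h2 u v huv
    have h7 := (hFN (some u) (some v)).1
    have h8 : √(N (some u) (some v)) ≤ √k * ℓ s(u, v) := by
      refine (Real.sqrt_le_sqrt h6.1).trans (le_of_eq ?_)
      rw [Real.sqrt_mul hk, Real.sqrt_sq hl0.le]
    show 48000 * F (some u) (some v) + 16000 * σ (some u) (some v) ≤ _
    have h9 := h6.2
    nlinarith

/-- **the metric part**: if three chains halve every set, and the components of `G` minus the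
chains of `A` lie in pieces of distortion `C`, then `(G, ℓ)` has distortion
`O(C + √log (|A| + 2))` -/
theorem sqrt_rounds (hc : G.Connected) (hℓ : ∀ e ∈ G.edgeSet, 0 < ℓ e) {u : V → ℝ}
    (hu : ∀ a b, |u a - u b| ≤ pathDist G ℓ a b) {p : V → V} {s : V}
    (hp : ∀ v, v ≠ s → G.Adj v (p v)) (hsep : Seps G p s)
    (hiso : ∀ c, ∀ a ∈ chain p s c, ∀ b ∈ chain p s c, pathDist G ℓ a b ≤ |u a - u b|)
    (A : Finset V) {C : ℝ} (hC : 1 ≤ C)
    (hleaf : ∀ v ∉ ⋃ a ∈ A, chain p s a, ∃ (W' : Type) (G' : SimpleGraph W') (ℓ' : Sym2 W' → ℝ)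
      (κ : compSet G (⋃ a ∈ A, chain p s a) v → W'),
      H341W.Piece G ℓ (compSet G (⋃ a ∈ A, chain p s a) v) G' ℓ' κ ∧
      EmbedsL1 (pathDist G' ℓ') C) :
    EmbedsL1 (pathDist G ℓ) (3328000 * (C + √(Real.log (A.card + 2)))) := by
  classical
  have hd := pathDist_isMet hc hℓ
  have hC0 : 0 < C := by linarith
  set m : ℕ := Nat.log 2 A.card + 1 with hm
  have hK : (0 : ℝ) < 96 * C + 112 := by linarith
  have hk : A.card < 2 ^ m := Nat.lt_pow_succ_log_self (by norm_num) _
  have key : ∀ H : V → ℝ, (∀ v, 0 < H v) → (∀ u v, G.Adj u v → |H u - H v| ≤ ℓ s(u, v)) →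
      Pointed2D G ℓ H (pathDist G ℓ) (4 * (2 * m : ℕ)) (96 * C + 112) := by
    intro H hH hHl
    have h1 := rec_pointed hc hℓ hu hp hsep hiso A hK.le (fun v hv => by
      obtain ⟨W', G', ℓ', κ, hpc, hE⟩ := hleaf v hv
      have := hpc.fin
      exact ⟨W', G', ℓ', κ, hpc, fun H' hH' hHl' =>
        H341W.pointed_leafW hC0 hpc.conn hpc.pos hH' hHl' hE⟩) (2 * m) V G id
      Function.injective_id (fun a b => Iff.rfl) hc (fun v w _ _ => ⟨w, rfl⟩) (by
        intro B hB _
        have h2 : B.card < 2 ^ m := (Finset.card_le_card hB).trans_lt hk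
        have e1 : (2 : ℕ) ^ (2 * m) = 4 ^ m := by rw [pow_mul]; norm_num
        have e2 : (3 : ℕ) ^ (2 * m) = 9 ^ m := by rw [pow_mul]; norm_num
        rw [e1, e2]
        calc 4 ^ m * B.card < 4 ^ m * 2 ^ m := Nat.mul_lt_mul_of_pos_left h2 (by positivity)
          _ = 8 ^ m := by rw [← mul_pow]; norm_num
          _ ≤ 9 ^ m := Nat.pow_le_pow_left (by norm_num) _) H hH hHl
      (fun a b hb _ => absurd ⟨b, rfl⟩ hb)
    have e : (fun e : Sym2 V => ℓ (e.map id)) = ℓ := by
      funext e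
      rw [Sym2.map_id]
      rfl
    rw [e] at h1
    exact h1
  obtain ⟨Ω, μ0, μ, f, hf⟩ := pointed2D_embeds (by positivity) hK hc hℓ key
  refine ⟨Ω, μ0, μ, f, fun x y => ⟨(hf x y).1, (hf x y).2.trans
    (mul_le_mul_of_nonneg_right ?_ (hd.nonneg x y))⟩⟩
  have h1 : (m : ℝ) ≤ 3 * Real.log (A.card + 2) := by
    have := _root_.Vale.Agent.P235.log_add_two A.card
    rw [← hm] at this
    exact this
  have h2 : √(4 * ((2 * m : ℕ) : ℝ)) ≤ 5 * √(Real.log (A.card + 2)) := by
    rw [Real.sqrt_le_left (by positivity)]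
    have h3 : 0 ≤ Real.log ((A.card : ℝ) + 2) := Real.log_nonneg (by
      have : (0 : ℝ) ≤ A.card := Nat.cast_nonneg _
      linarith)
    rw [mul_pow, Real.sq_sqrt h3]
    push_cast
    linarith
  have h3 := Real.sqrt_nonneg (Real.log ((A.card : ℝ) + 2))
  linarith

end Vale.Agent.P235.H718
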