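import Vale.Agent.P235.H105.Peel2
import Vale.Agent.P235.R2.H341.W2

/-!
# Rounds relative to one metric, square root bound: one round (helper718)
-/

namespace Vale.Agent.P235.H718

open Finset Vale.Agent.P235

/-- `Pointed2` relative to a function `D` of two vertices -/
def Pointed2D {V : Type} (G : SimpleGraph V) (ℓ : Sym2 V → ℝ) (H : V → ℝ) (D : V → V → ℝ)
    (k K : ℝ) : Prop :=
  ∃ N σ : Option V → Option V → ℝ, IsSq N ∧ IsL1 σ ∧
    (∀ u v, G.Adj u v → N (some u) (some v) ≤ k * ℓ s(u, v) ^ 2 ∧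
      σ (some u) (some v) ≤ K * ℓ s(u, v)) ∧
    (∀ v, N (some v) none ≤ k * H v ^ 2 ∧ σ (some v) none ≤ K * H v) ∧
    (∀ v, H v ^ 2 ≤ 9000000 * N (some v) none ∨ H v ≤ 2000 * σ (some v) none) ∧
    ∀ x y δ, 0 < δ → δ ≤ H x → δ ≤ H y → 8 * δ ≤ D x y →
      δ ^ 2 ≤ 9000000 * N (some x) (some y) ∨ δ ≤ 2000 * σ (some x) (some y)

theorem Pointed2D.mono {V : Type} {G : SimpleGraph V} {ℓ : Sym2 V → ℝ} {H : V → ℝ}
    {D : V → V → ℝ} {k k' K : ℝ} (hk : k ≤ k') (h : Pointed2D G ℓ H D k K) :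
    Pointed2D G ℓ H D k' K := by
  obtain ⟨N, σ, h0, h1, h2, h3, h4, h5⟩ := h
  exact ⟨N, σ, h0, h1, fun u v huv => ⟨(h2 u v huv).1.trans
    (mul_le_mul_of_nonneg_right hk (sq_nonneg _)), (h2 u v huv).2⟩,
    fun v => ⟨(h3 v).1.trans (mul_le_mul_of_nonneg_right hk (sq_nonneg _)), (h3 v).2⟩, h4, h5⟩

theorem pointed2D_of_pointedD {V : Type} {G : SimpleGraph V} {ℓ : Sym2 V → ℝ} {H : V → ℝ}
    {D : V → V → ℝ} {K : ℝ} (h : H341W.PointedD G ℓ H D K) : Pointed2D G ℓ H D 0 K := by
  obtain ⟨σ, h1, h2, h3, h4, h5⟩ := h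
  refine ⟨fun _ _ => 0, σ, IsSq.zero, h1, fun u v huv => ⟨by simp, h2 u v huv⟩,
    fun v => ⟨by simp, h3 v⟩, fun v => Or.inr (h4 v), fun x y δ _ hx hy hxy =>
      Or.inr (h5 x y δ hx hy hxy)⟩

section step

variable {V : Type} [Finite V] {G : SimpleGraph V} {ℓ : Sym2 V → ℝ}

/-- one function in `ℓ₂`, localised at the scale `H` -/
theorem fanSq {H : V → ℝ} (hH0 : ∀ v, 0 ≤ H v)
    (hHl : ∀ u v, G.Adj u v → |H u - H v| ≤ ℓ s(u, v)) {f : V → ℝ}
    (hf : ∀ u v, G.Adj u v → |f u - f v| ≤ ℓ s(u, v)) :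
    ∃ N : Option V → Option V → ℝ, IsSq N ∧
      (∀ u v, G.Adj u v → N (some u) (some v) ≤ ℓ s(u, v) ^ 2) ∧
      (∀ v, N (some v) none ≤ H v ^ 2) ∧ (∀ v, H v ^ 2 ≤ 4000000 * N (some v) none) ∧
      ∀ x y δ, 0 < δ → δ ≤ H x → δ ≤ H y → δ ≤ |f x - f y| →
        δ ^ 2 ≤ 4000000 * N (some x) (some y) := by
  classical
  obtain ⟨ι, _, w, g, hw, hs, hb, hm, hl, -, hn⟩ := fan' fan (fun _ : V => ()) f H hH0
  have hsq : ∀ a b : ℝ, |a| ≤ b → a ^ 2 ≤ b ^ 2 := fun a b ha => by
    rw [← sq_abs a]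
    exact pow_le_pow_left₀ (abs_nonneg a) ha 2
  refine ⟨fun a b => ∑ i, w i * (a.elim 0 (g i) - b.elim 0 (g i)) ^ 2,
    ⟨ι, inferInstance, w, fun i a => a.elim 0 (g i), hw, fun _ _ => rfl⟩, ?_, ?_, ?_, ?_⟩
  · intro u v huv
    have : ∀ i ∈ Finset.univ, w i * (g i u - g i v) ^ 2 ≤ w i * ℓ s(u, v) ^ 2 := by
      intro i _
      apply mul_le_mul_of_nonneg_left _ (hw i)
      exact hsq _ _ ((hm i u v rfl).trans (max_le (hf u v huv) (hHl u v huv)))
    refine (Finset.sum_le_sum this).trans ?_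
    rw [← Finset.sum_mul, hs, one_mul]
  · intro v
    have : ∀ i ∈ Finset.univ, w i * (g i v - 0) ^ 2 ≤ w i * H v ^ 2 := by
      intro i _
      apply mul_le_mul_of_nonneg_left _ (hw i)
      rw [sub_zero]; exact hsq _ _ (hb i v)
    refine (Finset.sum_le_sum this).trans ?_
    rw [← Finset.sum_mul, hs, one_mul]
  · intro v
    have f1 : 1 / 2000 * H v ≤ ∑ i, w i * |g i v - 0| := by
      refine (hn v).trans (le_of_eq ?_)
      refine Finset.sum_congr rfl fun i _ => ?_
      rw [sub_zero]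
    have f2 := wsum_sq (a := fun i => |g i v - 0|) hw hs
    have f3 : (1 / 2000 * H v) ^ 2 ≤ (∑ i, w i * |g i v - 0|) ^ 2 :=
      pow_le_pow_left₀ (mul_nonneg (by norm_num) (hH0 v)) f1 2
    have f4 : ∑ i, w i * |g i v - 0| ^ 2 = ∑ i, w i * (g i v - 0) ^ 2 := by
      refine Finset.sum_congr rfl fun i _ => ?_
      rw [sq_abs]
    have f5 := f3.trans (f2.trans (le_of_eq f4))
    have f6 : (1 / 2000 * H v) ^ 2 = H v ^ 2 / 4000000 := by ring
    rw [f6] at f5
    show H v ^ 2 ≤ 4000000 * ∑ i, w i * (g i v - 0) ^ 2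
    linarith
  · intro x y δ hδ hx hy hxy
    have f1 : 1 / 2000 * δ ≤ ∑ i, w i * |g i x - g i y| := by
      refine le_trans ?_ (hl x y rfl)
      refine mul_le_mul_of_nonneg_left (le_min hxy (by linarith)) (by norm_num)
    have f2 := wsum_sq (a := fun i => |g i x - g i y|) hw hs
    have f3 : (1 / 2000 * δ) ^ 2 ≤ (∑ i, w i * |g i x - g i y|) ^ 2 :=
      pow_le_pow_left₀ (mul_nonneg (by norm_num) hδ.le) f1 2
    have f4 : ∑ i, w i * |g i x - g i y| ^ 2 = ∑ i, w i * (g i x - g i y) ^ 2 := by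
      refine Finset.sum_congr rfl fun i _ => ?_
      rw [sq_abs]
    have f5 := f3.trans (f2.trans (le_of_eq f4))
    have f6 : (1 / 2000 * δ) ^ 2 = δ ^ 2 / 4000000 := by ring
    rw [f6] at f5
    show δ ^ 2 ≤ 4000000 * ∑ i, w i * (g i x - g i y) ^ 2
    linarith

/-- one round: `D` is a semimetric which is at most the edge lengths, `u` and the `D' i` are
nonexpanding along the edges -/
theorem pointed2D_step (hℓ : ∀ e ∈ G.edgeSet, 0 < ℓ e) {H : V → ℝ}
    (hH : ∀ v, 0 < H v) (hHl : ∀ u v, G.Adj u v → |H u - H v| ≤ ℓ s(u, v))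
    {D : V → V → ℝ} (hDself : ∀ x, D x x = 0) (hDsymm : ∀ x y, D x y = D y x)
    (hDtri : ∀ x y z, D x z ≤ D x y + D y z) (hDℓ : ∀ u v, G.Adj u v → D u v ≤ ℓ s(u, v))
    {u : V → ℝ} (hu : ∀ a b, G.Adj a b → |u a - u b| ≤ ℓ s(a, b)) {s : ℕ} {D' : Fin s → V → ℝ}
    (hD'ℓ : ∀ i a b, G.Adj a b → |D' i a - D' i b| ≤ ℓ s(a, b))
    (hD'u : ∀ i x y, D x y ≤ |u x - u y| + 2 * (D' i x + D' i y)) {P : Set V}
    (hP : ∀ z ∈ P, ∃ i, ∀ x, D' i x ≤ D x z) {k K : ℝ} (hk : 0 ≤ k) (hK : 0 ≤ K)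
    (ih : ∀ v ∉ P, ∀ φ : V → ℝ, (∀ v, 0 ≤ φ v) → (∀ v, v ∉ P → 0 < φ v) → (∀ v, φ v ≤ H v) →
      (∀ v ∈ P, φ v = 0) → (∀ a b, G.Adj a b → |φ a - φ b| ≤ ℓ s(a, b)) →
      Pointed2D (G.induce (compSet G P v)) (fun e => ℓ (e.map Subtype.val)) (fun v => φ v.1)
        (fun a b => D a.1 b.1) k K) :
    Pointed2D G ℓ H D (k + (s + 1)) K := by
  classical
  have := Fintype.ofFinite V
  obtain ⟨φ, hφ0, hφH, hφP, hφpos, hφl, hφn⟩ := exists_barrier hℓ hH hHl P
  have hH0 : ∀ v, 0 ≤ H v := fun v => (hH v).le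
  obtain ⟨N1, hN1, a1, a2, a3, a4⟩ := fanSq (G := G) (ℓ := ℓ) hH0 hHl hu
  choose N2 hN2 b1 b2 b3 b4 using fun i => fanSq (G := G) (ℓ := ℓ) hH0 hHl (hD'ℓ i)
  -- components
  let Q := Quotient (compSetoid G P)
  have : Fintype Q := Fintype.ofFinite Q
  have hQ : ∀ c : Q, Pointed2D (G.induce (compSet G P c.out.1)) (fun e => ℓ (e.map Subtype.val))
      (fun v => φ v.1) (fun a b => D a.1 b.1) k K := fun c => ih c.out.1 c.out.2 φ hφ0 hφpos hφH
        hφP hφl
  choose M r hMI hrI hr1 hr2 hr3 hr4 using hQ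
  have hmk : ∀ (v : V) (hv : v ∉ P), v ∈ compSet G P (⟦⟨v, hv⟩⟧ : Q).out.1 := by
    intro v hv
    exact Quotient.mk_out (s := compSetoid G P) ⟨v, hv⟩
  have huniq : ∀ (c : Q) (v : V) (hv : v ∉ P), v ∈ compSet G P c.out.1 → c = ⟦⟨v, hv⟩⟧ := by
    intro c v hv h
    have h1 : (⟦c.out⟧ : Q) = ⟦⟨v, hv⟩⟧ := Quotient.sound h
    rwa [Quotient.out_eq] at h1
  have hrX : ∀ (c : Q) (v : V), v ∈ P → v ∉ compSet G P c.out.1 := fun c v hv h =>
    ReachOff.right h hv
  let e : ∀ c : Q, Option V → Option (compSet G P c.out.1) := fun c a =>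
    a.elim none fun v => if h : v ∈ compSet G P c.out.1 then some ⟨v, h⟩ else none
  have he0 : ∀ c, e c none = none := fun c => rfl
  have he1 : ∀ c v (h : v ∈ compSet G P c.out.1), e c (some v) = some ⟨v, h⟩ := by
    intro c v h
    exact dif_pos h
  have he2 : ∀ c v, v ∉ compSet G P c.out.1 → e c (some v) = none := by
    intro c v h
    exact dif_neg h
  let N4 : Option V → Option V → ℝ := fun a b => ∑ i : Fin s, N2 i a b
  let N3 : Option V → Option V → ℝ := fun a b => ∑ c : Q, M c (e c a) (e c b)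
  let G3 : Option V → Option V → ℝ := fun a b => ∑ c : Q, r c (e c a) (e c b)
  have hN4 : IsSq N4 := IsSq.sum Finset.univ (fun i a b => N2 i a b) fun i _ => hN2 i
  have hN3 : IsSq N3 := IsSq.sum Finset.univ (fun c a b => M c (e c a) (e c b))
    fun c _ => (hMI c).comap (e c)
  have hG3 : IsL1 G3 := IsL1.sum Finset.univ (fun c a b => r c (e c a) (e c b))
    fun c _ => (hrI c).comap (e c)
  have hn1' : ∀ a b, 0 ≤ N1 a b := hN1.nonneg
  have hn4' : ∀ a b, 0 ≤ N4 a b := hN4.nonneg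
  have hn3' : ∀ a b, 0 ≤ N3 a b := hN3.nonneg
  have hg3' : ∀ a b, 0 ≤ G3 a b := hG3.nonneg
  have hN4single : ∀ i a b, N2 i a b ≤ N4 a b := fun i a b =>
    Finset.single_le_sum (f := fun i => N2 i a b) (fun i _ => (hN2 i).nonneg a b)
      (Finset.mem_univ i)
  have htermM : ∀ (c : Q) a b, 0 ≤ M c (e c a) (e c b) := fun c a b => (hMI c).nonneg _ _
  have hterm : ∀ (c : Q) a b, 0 ≤ r c (e c a) (e c b) := fun c a b => (hrI c).nonneg _ _
  have hsingleM : ∀ (c : Q) a b, M c (e c a) (e c b) ≤ N3 a b := fun c a b =>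
    Finset.single_le_sum (f := fun c => M c (e c a) (e c b)) (fun c _ => htermM c a b)
      (Finset.mem_univ c)
  have hsingle : ∀ (c : Q) a b, r c (e c a) (e c b) ≤ G3 a b := fun c a b =>
    Finset.single_le_sum (f := fun c => r c (e c a) (e c b)) (fun c _ => hterm c a b)
      (Finset.mem_univ c)
  refine ⟨fun a b => (N1 a b + N4 a b) + N3 a b, G3, (hN1.add hN4).add hN3, hG3, ?_, ?_, ?_, ?_⟩
  · -- edges
    intro x y hxy
    have f1 : N1 (some x) (some y) ≤ ℓ s(x, y) ^ 2 := a1 x y hxy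
    have f2 : N4 (some x) (some y) ≤ s * ℓ s(x, y) ^ 2 := by
      refine (Finset.sum_le_sum fun i _ => b1 i x y hxy).trans (le_of_eq ?_)
      rw [Finset.sum_const, Finset.card_univ, Fintype.card_fin, nsmul_eq_mul]
    have hone : ∀ u v, u ∉ P → G.Adj u v → N3 (some u) (some v) ≤ k * ℓ s(u, v) ^ 2 ∧
        G3 (some u) (some v) ≤ K * ℓ s(u, v) := by
      intro u v hu huv
      have hz : ∀ c ∈ Finset.univ, c ≠ (⟦⟨u, hu⟩⟧ : Q) →
          e c (some u) = none ∧ e c (some v) = none := by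
        intro c _ hc
        have h1 : u ∉ compSet G P c.out.1 := fun h => hc (huniq c u hu h)
        have h2 : v ∉ compSet G P c.out.1 := fun h =>
          h1 (ReachOff.trans h (ReachOff.adj (ReachOff.right h) hu huv.symm))
        exact ⟨he2 c u h1, he2 c v h2⟩
      have hsumM : N3 (some u) (some v) = M ⟦⟨u, hu⟩⟧ (e _ (some u)) (e _ (some v)) := by
        refine Finset.sum_eq_single _ (fun c hc1 hc => ?_) (fun h => absurd (Finset.mem_univ _) h)
        rw [(hz c hc1 hc).1, (hz c hc1 hc).2]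
        exact (hMI c).self _
      have hsum : G3 (some u) (some v) = r ⟦⟨u, hu⟩⟧ (e _ (some u)) (e _ (some v)) := by
        refine Finset.sum_eq_single _ (fun c hc1 hc => ?_) (fun h => absurd (Finset.mem_univ _) h)
        rw [(hz c hc1 hc).1, (hz c hc1 hc).2]
        exact (hrI c).self _
      rw [hsum, hsumM, he1 _ u (hmk u hu)]
      by_cases hv : v ∈ P
      · rw [he2 _ v (hrX _ v hv)]
        have h1 := hφl u v huv
        rw [hφP v hv, sub_zero] at h1
        have h2 := (le_abs_self _).trans h1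
        have h3 := hr2 (⟦⟨u, hu⟩⟧ : Q) ⟨u, hmk u hu⟩
        refine ⟨h3.1.trans (mul_le_mul_of_nonneg_left ?_ hk),
          h3.2.trans (mul_le_mul_of_nonneg_left h2 hK)⟩
        exact pow_le_pow_left₀ (hφ0 u) h2 2
      · have hvK : v ∈ compSet G P (⟦⟨u, hu⟩⟧ : Q).out.1 :=
          ReachOff.trans (hmk u hu) (ReachOff.adj hu hv huv)
        rw [he1 _ v hvK]
        exact hr1 _ _ _ huv
    have f3 : N3 (some x) (some y) ≤ k * ℓ s(x, y) ^ 2 ∧
        G3 (some x) (some y) ≤ K * ℓ s(x, y) := by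
      have hl0 : 0 < ℓ s(x, y) := hℓ _ hxy
      by_cases hx : x ∈ P
      · by_cases hy : y ∈ P
        · have hzM : N3 (some x) (some y) = 0 := Finset.sum_eq_zero fun c _ => by
            rw [he2 c x (hrX c x hx), he2 c y (hrX c y hy)]
            exact (hMI c).self _
          have hz : G3 (some x) (some y) = 0 := Finset.sum_eq_zero fun c _ => by
            rw [he2 c x (hrX c x hx), he2 c y (hrX c y hy)]
            exact (hrI c).self _
          rw [hz, hzM]
          constructor <;> positivity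
        · rw [hG3.symm, hN3.symm, Sym2.eq_swap]
          exact hone y x hy hxy.symm
      · exact hone x y hx hxy
    refine ⟨?_, f3.2⟩
    show N1 (some x) (some y) + N4 (some x) (some y) + N3 (some x) (some y) ≤ _
    have := f3.1
    linarith
  · -- upper bound at the base point
    intro v
    have f1 : N1 (some v) none ≤ H v ^ 2 := a2 v
    have f2 : N4 (some v) none ≤ s * H v ^ 2 := by
      refine (Finset.sum_le_sum fun i _ => b2 i v).trans (le_of_eq ?_)
      rw [Finset.sum_const, Finset.card_univ, Fintype.card_fin, nsmul_eq_mul]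
    have f3 : N3 (some v) none ≤ k * H v ^ 2 ∧ G3 (some v) none ≤ K * H v := by
      by_cases hv : v ∈ P
      · have hzM : N3 (some v) none = 0 := Finset.sum_eq_zero fun c _ => by
          rw [he2 c v (hrX c v hv), he0]
          exact (hMI c).self _
        have hz : G3 (some v) none = 0 := Finset.sum_eq_zero fun c _ => by
          rw [he2 c v (hrX c v hv), he0]
          exact (hrI c).self _
        rw [hz, hzM]
        exact ⟨mul_nonneg hk (sq_nonneg _), mul_nonneg hK (hH0 v)⟩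
      · have hz0 : ∀ c ∈ Finset.univ, c ≠ (⟦⟨v, hv⟩⟧ : Q) → e c (some v) = none := by
          intro c _ hc
          exact he2 c v fun h => hc (huniq c v hv h)
        have hsumM : N3 (some v) none = M ⟦⟨v, hv⟩⟧ (e _ (some v)) (e _ none) := by
          refine Finset.sum_eq_single _ (fun c hc1 hc => ?_)
            (fun h => absurd (Finset.mem_univ _) h)
          rw [hz0 c hc1 hc, he0]
          exact (hMI c).self _
        have hsum : G3 (some v) none = r ⟦⟨v, hv⟩⟧ (e _ (some v)) (e _ none) := by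
          refine Finset.sum_eq_single _ (fun c hc1 hc => ?_)
            (fun h => absurd (Finset.mem_univ _) h)
          rw [hz0 c hc1 hc, he0]
          exact (hrI c).self _
        rw [hsum, hsumM, he1 _ v (hmk v hv), he0]
        have h3 := hr2 (⟦⟨v, hv⟩⟧ : Q) ⟨v, hmk v hv⟩
        exact ⟨h3.1.trans (mul_le_mul_of_nonneg_left (pow_le_pow_left₀ (hφ0 v) (hφH v) 2) hk),
          h3.2.trans (mul_le_mul_of_nonneg_left (hφH v) hK)⟩
    refine ⟨?_, f3.2⟩
    show N1 (some v) none + N4 (some v) none + N3 (some v) none ≤ _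
    have := f3.1
    linarith
  · -- lower bound at the base point
    intro v
    left
    have f1 := a3 v
    have := hn4' (some v) none
    have := hn3' (some v) none
    have := hn1' (some v) none
    show H v ^ 2 ≤ 9000000 * (N1 (some v) none + N4 (some v) none + N3 (some v) none)
    linarith
  · -- separation
    intro x y δ hδ hx hy hxy
    show δ ^ 2 ≤ 9000000 * (N1 (some x) (some y) + N4 (some x) (some y) + N3 (some x) (some y)) ∨
      δ ≤ 2000 * G3 (some x) (some y)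
    have p1 := hn1' (some x) (some y)
    have p2 := hn4' (some x) (some y)
    have p3 := hn3' (some x) (some y)
    have p4 := hg3' (some x) (some y)
    have key : ∀ a b, δ ≤ H a → δ ≤ H b → 8 * δ ≤ D a b → φ a < δ →
        δ ^ 2 ≤ 9000000 * (N1 (some a) (some b) + N4 (some a) (some b)) := by
      intro a b ha hb hab hφa
      obtain ⟨z, hz, hzf⟩ := hφn a (hφa.trans_le ha)
      have haz : D a z < δ := by
        have h1 := hzf (fun v => D v z) (fun u v huv => by
          have a1 := hDtri u v z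
          have a2 := hDtri v u z
          rw [hDsymm v u] at a2
          have a3 := hDℓ u v huv
          rw [abs_le]; constructor <;> linarith)
        rw [hDself, sub_zero] at h1
        exact ((le_abs_self _).trans h1).trans_lt hφa
      obtain ⟨i, hi⟩ := hP z hz
      have h1 := hi a
      have q1 := hn1' (some a) (some b)
      have q2 := hn4' (some a) (some b)
      by_cases hcase : 2 * δ ≤ D' i b
      · have h2 : δ ≤ |D' i a - D' i b| := by
          rw [abs_sub_comm]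
          refine le_trans ?_ (le_abs_self _)
          linarith
        have h3 := b4 i a b δ hδ ha hb h2
        have h4 := hN4single i (some a) (some b)
        linarith
      · push Not at hcase
        have h2 := hD'u i a b
        have h3 : δ ≤ |u a - u b| := by linarith
        have h4 := a4 a b δ hδ ha hb h3
        linarith
    by_cases hφx : δ ≤ φ x
    · by_cases hφy : δ ≤ φ y
      · have hxP : x ∉ P := fun h => by rw [hφP x h] at hφx; linarith
        have hyP : y ∉ P := fun h => by rw [hφP y h] at hφy; linarith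
        have h3 := hsingle ⟦⟨x, hxP⟩⟧ (some x) (some y)
        have h3' := hsingleM ⟦⟨x, hxP⟩⟧ (some x) (some y)
        rw [he1 _ x (hmk x hxP)] at h3 h3'
        by_cases hyK : y ∈ compSet G P (⟦⟨x, hxP⟩⟧ : Q).out.1
        · rw [he1 _ y hyK] at h3 h3'
          rcases hr4 ⟦⟨x, hxP⟩⟧ ⟨x, hmk x hxP⟩ ⟨y, hyK⟩ δ hδ hφx hφy hxy with h4 | h4
          · left; linarith
          · right; linarith
        · rw [he2 _ y hyK] at h3 h3'
          rcases hr3 ⟦⟨x, hxP⟩⟧ ⟨x, hmk x hxP⟩ with h4 | h4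
          · left
            have h5 : φ x ^ 2 ≤ 9000000 * M ⟦⟨x, hxP⟩⟧ (some ⟨x, hmk x hxP⟩) none := h4
            have h6 : δ ^ 2 ≤ φ x ^ 2 := pow_le_pow_left₀ hδ.le hφx 2
            linarith
          · right
            have h5 : φ x ≤ 2000 * r ⟦⟨x, hxP⟩⟧ (some ⟨x, hmk x hxP⟩) none := h4
            linarith
      · push Not at hφy
        left
        have h1 := key y x hy hx (by rw [hDsymm]; exact hxy) hφy
        rw [hN1.symm, hN4.symm] at h1
        linarith
    · push Not at hφx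
      left
      have h1 := key x y hx hy hxy hφx
      linarith

end step

end Vale.Agent.P235.H718
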