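import Vale.Agent.P235.R2.H582.KprSpec
import Vale.Agent.P235.R2.H718.S1

/-!
# Measured descent over lanes in plane graphs: the rows (helper718)
-/

set_option autoImplicit false

namespace Vale.Agent.P235.Kpr

open Vale.Agent.P235

/-- (P) random partitions, with padding -/
def RowPad : Prop :=
  ∀ (V : Type) [Finite V] (G : SimpleGraph V) (ℓ : Sym2 V → ℝ), G.Connected →
    (∃ σ : Equiv.Perm G.Dart, PlaneMap G σ) → (∀ e ∈ G.edgeSet, 0 < ℓ e) →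
    ∀ (Δ : ℝ) (N : ℕ), 0 < Δ → 0 < N → ∃ c : Fin N × Fin N × Fin N → V → V,
      (∀ ω u v, c ω u = c ω v → pathDist G ℓ u v ≤ 52 * Δ) ∧
      ∀ u t, 0 ≤ t → ({ω | ∃ v, pathDist G ℓ u v ≤ t ∧ c ω u ≠ c ω v}.ncard : ℝ) ≤
        3 * (N : ℝ) ^ 3 * (2 * t / Δ + 1 / N)

/-- (M) one map at the variable scale `τ` -/
def RowVar : Prop :=
  ∀ (V : Type) [Finite V] (G : SimpleGraph V) (ℓ : Sym2 V → ℝ), G.Connected →
    (∃ σ : Equiv.Perm G.Dart, PlaneMap G σ) → (∀ e ∈ G.edgeSet, 0 < ℓ e) →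
    ∀ τ : V → ℝ, (∀ v, 0 ≤ τ v) → (∀ u v, G.Adj u v → |τ u - τ v| ≤ ℓ s(u, v)) →
    ∃ N : V → V → ℝ, IsSq N ∧ (∀ u v, G.Adj u v → N u v ≤ 12 * ℓ s(u, v) ^ 2) ∧
      ∀ x y, 0 < τ x → τ x ≤ 2 * pathDist G ℓ x y → τ x ^ 2 ≤ 10 ^ 10 * N x y

/-- (L) the union of `s` lanes of one nonexpansive function in a plane graph -/
def RowLanes : Prop :=
  ∃ C : ℝ, 1 ≤ C ∧ ∀ (V : Type) [Finite V] (G : SimpleGraph V) (ℓ : Sym2 V → ℝ), G.Connected →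
    (∃ σ : Equiv.Perm G.Dart, PlaneMap G σ) → (∀ e ∈ G.edgeSet, 0 < ℓ e) →
    ∀ (u : V → ℝ), (∀ a b, |u a - u b| ≤ pathDist G ℓ a b) → ∀ (s : ℕ) (L : Fin s → Set V),
    (∀ i, ∀ a ∈ L i, ∀ b ∈ L i, pathDist G ℓ a b ≤ |u a - u b|) → (⋃ i, L i).Nonempty →
    EmbedsL1 (fun x y : ↥(⋃ i, L i) => pathDist G ℓ x y) (C * √(Real.log ((s : ℝ) + 2)))

end Vale.Agent.P235.Kpr
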