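import Vale.Agent.P235.R2.H718.PadAll
import Vale.Agent.P235.H536.Strip

/-!
# The union of `s` lanes in a plane graph (helper718)
-/

set_option autoImplicit false

namespace Vale.Agent.P235.Kpr

open Finset Vale.Agent.P235

/-- the `q`-th smallest of finitely many functions -/
theorem orderStat {V : Type} {G : SimpleGraph V} {ℓ : Sym2 V → ℝ} {ι : Type} [Fintype ι]
    (D : ι → V → ℝ) (hD0 : ∀ i v, 0 ≤ D i v)
    (hD : ∀ i u v, G.Adj u v → |D i u - D i v| ≤ ℓ s(u, v))
    {q : ℕ} (hq : 0 < q) (hqc : q ≤ Fintype.card ι) :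
    ∃ τ : V → ℝ, (∀ v, 0 ≤ τ v) ∧ (∀ u v, G.Adj u v → |τ u - τ v| ≤ ℓ s(u, v)) ∧
      (∀ v t, ∀ A : Finset ι, (∀ i ∈ A, D i v ≤ t) → q ≤ A.card → τ v ≤ t) ∧
      ∀ v t, (∀ A : Finset ι, (∀ i ∈ A, D i v ≤ t) → A.card < q) → t < τ v := by
  classical
  let P : Finset (Finset ι) := Finset.powersetCard q Finset.univ
  have hP : P.Nonempty := Finset.powersetCard_nonempty.2 (by rw [Finset.card_univ]; exact hqc)
  let m : Finset ι → V → ℝ := fun A v => if h : A.Nonempty then A.sup' h (fun i => D i v) else 0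
  have hPc : ∀ A ∈ P, A.card = q := fun A hA => (Finset.mem_powersetCard.1 hA).2
  have hPn : ∀ A ∈ P, A.Nonempty := fun A hA =>
    Finset.card_pos.1 (by rw [hPc A hA]; exact hq)
  have hm : ∀ A (h : A.Nonempty) v, m A v = A.sup' h (fun i => D i v) := fun A h v => dif_pos h
  have hml : ∀ A ∈ P, ∀ v, ∀ i ∈ A, D i v ≤ m A v := by
    intro A hA v i hi
    rw [hm A (hPn A hA)]
    exact Finset.le_sup' (fun i => D i v) hi
  have hmle : ∀ A ∈ P, ∀ v t, (∀ i ∈ A, D i v ≤ t) → m A v ≤ t := by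
    intro A hA v t h
    rw [hm A (hPn A hA)]
    exact Finset.sup'_le _ _ h
  let τ : V → ℝ := fun v => P.inf' hP (fun A => m A v)
  have hτle : ∀ A ∈ P, ∀ v, τ v ≤ m A v := fun A hA v => Finset.inf'_le _ hA
  have h1 : ∀ u v, G.Adj u v → τ u ≤ τ v + ℓ s(u, v) := by
    intro u v huv
    have : τ u - ℓ s(u, v) ≤ τ v := by
      refine Finset.le_inf' _ _ fun A hA => ?_
      have h2 := hτle A hA u
      have h3 : m A u ≤ m A v + ℓ s(u, v) := by
        refine hmle A hA u _ fun i hi => ?_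
        have h4 := hml A hA v i hi
        have h5 := hD i u v huv
        rw [abs_le] at h5
        linarith
      linarith
    linarith
  refine ⟨τ, ?_, ?_, ?_, ?_⟩
  · intro v
    refine Finset.le_inf' _ _ fun A hA => ?_
    obtain ⟨i, hi⟩ := hPn A hA
    exact (hD0 i v).trans (hml A hA v i hi)
  · intro u v huv
    have h2 := h1 u v huv
    have h3 := h1 v u huv.symm
    rw [Sym2.eq_swap] at h3
    rw [abs_le]
    constructor <;> linarith
  · intro v t A hA hqA
    obtain ⟨B, hBA, hB⟩ := Finset.exists_subset_card_eq hqA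
    have hBP : B ∈ P := Finset.mem_powersetCard.2 ⟨Finset.subset_univ _, hB⟩
    exact (hτle B hBP v).trans (hmle B hBP v t fun i hi => hA i (hBA hi))
  · intro v t ht
    obtain ⟨A, hA, he⟩ := Finset.exists_mem_eq_inf' hP (fun A => m A v)
    have he' : τ v = m A v := he
    rw [he']
    by_contra h
    push Not at h
    have h2 := ht A fun i hi => (hml A hA v i hi).trans h
    rw [hPc A hA] at h2
    exact lt_irrefl _ h2

/-- (L), with a square metric -/
theorem lanesSq (hM : RowVar) {V : Type} [Finite V] {G : SimpleGraph V} {ℓ : Sym2 V → ℝ}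
    (hc : G.Connected) (hpl : ∃ σ : Equiv.Perm G.Dart, PlaneMap G σ)
    (hℓ : ∀ e ∈ G.edgeSet, 0 < ℓ e) {u : V → ℝ} (hu : ∀ a b, |u a - u b| ≤ pathDist G ℓ a b)
    {s : ℕ} {L : Fin s → Set V} (hL : ∀ i, ∀ a ∈ L i, ∀ b ∈ L i, pathDist G ℓ a b ≤ |u a - u b|) :
    ∃ N : V → V → ℝ, IsSq N ∧
      (∀ a b, G.Adj a b → N a b ≤ 39 * Real.log ((s : ℝ) + 2) * ℓ s(a, b) ^ 2) ∧
      ∀ x y r, 8 * r ≤ pathDist G ℓ x y → 0 < pathDist G ℓ x y →
        (∃ i, ∃ z ∈ L i, 8 * pathDist G ℓ x z ≤ pathDist G ℓ x y) →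
        (∃ i, ∃ z ∈ L i, 8 * pathDist G ℓ y z ≤ pathDist G ℓ x y) →
        pathDist G ℓ x y ^ 2 ≤ 10 ^ 12 * N x y := by
  classical
  have := Fintype.ofFinite V
  have hd := pathDist_isMet hc hℓ
  let ι := {i : Fin s // (L i).Nonempty}
  have hν : ∀ i : ι, ∃ ν, Near G ℓ (L i.1) ν := fun i => exists_near hc hℓ i.2
  choose ν hν using hν
  let D : ι → V → ℝ := fun i v => pathDist G ℓ v (ν i v)
  have hDz : ∀ i v, ∀ z ∈ L i.1, D i v ≤ pathDist G ℓ v z := fun i v z hz => (hν i).le v z hz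
  have hDt : ∀ i x y, D i x ≤ pathDist G ℓ x y + D i y := fun i x y =>
    (hDz i x _ ((hν i).mem y)).trans (hd.tri x y (ν i y))
  have hD0 : ∀ i v, 0 ≤ D i v := fun i v => hd.nonneg _ _
  have hDl : ∀ i a b, G.Adj a b → |D i a - D i b| ≤ ℓ s(a, b) := by
    intro i a b hab
    have h1 := hDt i a b
    have h2 := hDt i b a
    rw [hd.symm b a] at h2
    have h3 := pathDist_adj hℓ hab
    rw [abs_le]
    constructor <;> linarith
  set J := Nat.log 2 (Fintype.card ι) with hJ
  have hτ : ∀ j : Fin (J + 1), Nonempty ι → ∃ τ : V → ℝ, (∀ v, 0 ≤ τ v) ∧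
      (∀ a b, G.Adj a b → |τ a - τ b| ≤ ℓ s(a, b)) ∧
      (∀ v t, ∀ A : Finset ι, (∀ i ∈ A, D i v ≤ t) → 2 ^ (j : ℕ) ≤ A.card → τ v ≤ t) ∧
      ∀ v t, (∀ A : Finset ι, (∀ i ∈ A, D i v ≤ t) → A.card < 2 ^ (j : ℕ)) → t < τ v := by
    intro j hne
    refine orderStat D hD0 hDl (by positivity) ?_
    have hcard : Fintype.card ι ≠ 0 := Fintype.card_ne_zero
    exact Nat.pow_le_of_le_log hcard (by have := j.2; omega)
  by_cases hne : Nonempty ι
  swap
  · refine ⟨fun _ _ => 0, IsSq.zero, fun a b hab => ?_, fun x y r _ _ hx _ => ?_⟩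
    · have h1 : 0 ≤ Real.log ((s : ℝ) + 2) := Real.log_nonneg (by
        have : (0 : ℝ) ≤ s := Nat.cast_nonneg _
        linarith)
      positivity
    · obtain ⟨i, z, hz, _⟩ := hx
      exact absurd ⟨⟨i, z, hz⟩⟩ hne
  choose τ hτ0 hτl hτle hτlt using fun j => hτ j hne
  choose N hN1 hN2 hN3 using fun j => hM V G ℓ hc hpl hℓ (τ j) (hτ0 j) (hτl j)
  have hNsum : IsSq fun a b => ∑ j : Fin (J + 1), N j a b :=
    IsSq.sum Finset.univ (fun j => N j) fun j _ => hN1 j
  have hNu : IsSq fun a b : V => (u a - u b) ^ 2 :=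
    ⟨Unit, inferInstance, fun _ => 1, fun _ => u, fun _ => zero_le_one, fun _ _ => by simp⟩
  have hlogJ : ((J : ℝ) + 1) ≤ 3 * Real.log ((s : ℝ) + 2) := by
    have h1 := _root_.Vale.Agent.P235.log_add_two (Fintype.card ι)
    have h2 : Fintype.card ι ≤ s := by
      have := Fintype.card_subtype_le (fun i : Fin s => (L i).Nonempty)
      rwa [Fintype.card_fin] at this
    have h3 : Real.log ((Fintype.card ι : ℝ) + 2) ≤ Real.log ((s : ℝ) + 2) := by
      refine Real.log_le_log (by positivity) ?_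
      have : (Fintype.card ι : ℝ) ≤ s := by exact_mod_cast h2
      linarith
    push_cast at h1
    linarith
  refine ⟨fun a b => (u a - u b) ^ 2 + ∑ j : Fin (J + 1), N j a b, hNu.add hNsum, ?_, ?_⟩
  · intro a b hab
    show (u a - u b) ^ 2 + ∑ j : Fin (J + 1), N j a b ≤ _
    have h1 : (u a - u b) ^ 2 ≤ ℓ s(a, b) ^ 2 := by
      rw [← sq_abs]
      exact pow_le_pow_left₀ (abs_nonneg _) ((hu a b).trans (pathDist_adj hℓ hab)) 2
    have h2 : ∑ j : Fin (J + 1), N j a b ≤ ((J : ℝ) + 1) * (12 * ℓ s(a, b) ^ 2) := by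
      refine (Finset.sum_le_sum fun j _ => hN2 j a b hab).trans (le_of_eq ?_)
      rw [Finset.sum_const, Finset.card_univ, Fintype.card_fin, nsmul_eq_mul]
      push_cast
      ring
    have h3 := sq_nonneg (ℓ s(a, b))
    have h4 : (1 : ℝ) ≤ (J : ℝ) + 1 := by
      have : (0 : ℝ) ≤ (J : ℝ) := Nat.cast_nonneg _
      linarith
    nlinarith [mul_le_mul_of_nonneg_right h4 h3, mul_le_mul_of_nonneg_right hlogJ h3]
  · have half : ∀ x y, 0 < pathDist G ℓ x y →
        (¬ ∃ i : ι, D i x ≤ pathDist G ℓ x y / 8 ∧ D i y ≤ pathDist G ℓ x y / 8) →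
        (∃ i : ι, D i x ≤ pathDist G ℓ x y / 8) →
        (Finset.univ.filter fun i : ι => D i x ≤ pathDist G ℓ x y / 8).card ≤
          (Finset.univ.filter fun i : ι => D i y ≤ pathDist G ℓ x y / 8).card →
        pathDist G ℓ x y ^ 2 ≤ 64 * 10 ^ 10 * ∑ j : Fin (J + 1), N j x y := by
      intro x y hxy hdis hx hcard
      set d := pathDist G ℓ x y with hdd
      set A := Finset.univ.filter fun i : ι => D i x ≤ d / 8 with hA
      set B := Finset.univ.filter fun i : ι => D i y ≤ d / 8 with hB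
      have hApos : A.card ≠ 0 := by
        obtain ⟨i, hi⟩ := hx
        exact Finset.card_ne_zero_of_mem (Finset.mem_filter.2 ⟨Finset.mem_univ i, hi⟩)
      have hdisj : Disjoint A B := by
        rw [Finset.disjoint_left]
        intro i h1 h2
        exact hdis ⟨i, (Finset.mem_filter.1 h1).2, (Finset.mem_filter.1 h2).2⟩
      have hlt : A.card < 2 ^ (Nat.log 2 A.card + 1) := Nat.lt_pow_succ_log_self (by norm_num) _
      have hle : 2 ^ (Nat.log 2 A.card + 1) ≤ (A ∪ B).card := by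
        rw [Finset.card_union_of_disjoint hdisj]
        have h1 : 2 ^ Nat.log 2 A.card ≤ A.card := Nat.pow_log_le_self 2 hApos
        rw [pow_succ]
        omega
      have hJle : Nat.log 2 A.card + 1 ≤ J := by
        refine Nat.le_log_of_pow_le (by norm_num) (hle.trans ?_)
        exact Finset.card_le_univ _
      let j : Fin (J + 1) := ⟨Nat.log 2 A.card + 1, by omega⟩
      have h1 : τ j x ≤ 2 * d := by
        refine hτle j x (2 * d) (A ∪ B) (fun i hi => ?_) hle
        rcases Finset.mem_union.1 hi with h | h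
        · have := (Finset.mem_filter.1 h).2
          linarith
        · have h2 := (Finset.mem_filter.1 h).2
          have h3 := hDt i x y
          linarith
      have h2 : d / 8 < τ j x := by
        refine hτlt j x (d / 8) fun A' hA' => ?_
        have h3 : A' ⊆ A := fun i hi =>
          Finset.mem_filter.2 ⟨Finset.mem_univ i, hA' i hi⟩
        exact (Finset.card_le_card h3).trans_lt hlt
      have h3 := hN3 j x y (by linarith) h1
      have h4 : N j x y ≤ ∑ j : Fin (J + 1), N j x y :=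
        Finset.single_le_sum (f := fun j => N j x y) (fun j _ => (hN1 j).nonneg x y)
          (Finset.mem_univ j)
      have h5 : (d / 8) ^ 2 ≤ τ j x ^ 2 := pow_le_pow_left₀ (by positivity) h2.le 2
      have e : (d / 8) ^ 2 = d ^ 2 / 64 := by ring
      rw [e] at h5
      linarith
    intro x y r _ hxy hx hy
    show pathDist G ℓ x y ^ 2 ≤ 10 ^ 12 * ((u x - u y) ^ 2 + ∑ j : Fin (J + 1), N j x y)
    have hs0 := hNsum.nonneg x y
    have hu0 := sq_nonneg (u x - u y)
    obtain ⟨i₁, z₁, hz₁, hx'⟩ := hx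
    obtain ⟨i₂, z₂, hz₂, hy'⟩ := hy
    have hxA : ∃ i : ι, D i x ≤ pathDist G ℓ x y / 8 :=
      ⟨⟨i₁, z₁, hz₁⟩, (hDz ⟨i₁, z₁, hz₁⟩ x z₁ hz₁).trans (by linarith)⟩
    have hyA : ∃ i : ι, D i y ≤ pathDist G ℓ x y / 8 :=
      ⟨⟨i₂, z₂, hz₂⟩, (hDz ⟨i₂, z₂, hz₂⟩ y z₂ hz₂).trans (by linarith)⟩
    by_cases hcom : ∃ i : ι, D i x ≤ pathDist G ℓ x y / 8 ∧ D i y ≤ pathDist G ℓ x y / 8
    · obtain ⟨i, h1, h2⟩ := hcom
      have h3 := hL i.1 _ ((hν i).mem x) _ ((hν i).mem y)
      have h4 := hu x (ν i x)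
      have h5 := hu y (ν i y)
      have h6 := hd.tri x (ν i x) y
      have h7 := hd.tri (ν i x) (ν i y) y
      rw [hd.symm (ν i y) y] at h7
      have h1' : pathDist G ℓ x (ν i x) ≤ pathDist G ℓ x y / 8 := h1
      have h2' : pathDist G ℓ y (ν i y) ≤ pathDist G ℓ x y / 8 := h2
      have h8 : pathDist G ℓ x y / 2 ≤ |u x - u y| := by
        rw [abs_le] at h4 h5
        rcases abs_cases (u (ν i x) - u (ν i y)) with ⟨h9, _⟩ | ⟨h9, _⟩
        · refine le_trans ?_ (le_abs_self _)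
          linarith
        · refine le_trans ?_ (neg_le_abs _)
          linarith
      have h9 := pow_le_pow_left₀ (by positivity) h8 2
      rw [sq_abs] at h9
      have e : (pathDist G ℓ x y / 2) ^ 2 = pathDist G ℓ x y ^ 2 / 4 := by ring
      rw [e] at h9
      linarith
    · rcases le_total (Finset.univ.filter fun i : ι => D i x ≤ pathDist G ℓ x y / 8).card
        (Finset.univ.filter fun i : ι => D i y ≤ pathDist G ℓ x y / 8).card with h | h
      · have := half x y hxy hcom hxA h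
        linarith
      · have e := hd.symm x y
        have h1 := half y x (by rw [← e]; exact hxy)
          (by rw [← e]; rintro ⟨i, h1, h2⟩; exact hcom ⟨i, h2, h1⟩) (by rw [← e]; exact hyA)
          (by rw [← e]; exact h)
        have h2 : ∑ j : Fin (J + 1), N j y x = ∑ j : Fin (J + 1), N j x y :=
          Finset.sum_congr rfl fun j _ => (hN1 j).symm y x
        rw [h2, ← e] at h1
        linarith

/-- (L) -/
theorem rowLanesD (hM : RowVar) : RowLanes := by
  refine ⟨14 * 10 ^ 6, by norm_num, ?_⟩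
  intro V _ G ℓ hc hpl hℓ u hu s L hL _
  have hd := pathDist_isMet hc hℓ
  obtain ⟨N, hN, hNl, hNx⟩ := lanesSq hM hc hpl hℓ hu hL
  obtain ⟨F, hF, hFN⟩ := hN.toL1
  have hs0 : (0 : ℝ) ≤ s := Nat.cast_nonneg _
  have hlog : 0 < Real.log ((s : ℝ) + 2) := Real.log_pos (by linarith)
  set R := √(Real.log ((s : ℝ) + 2)) with hR
  have hR0 : 0 < R := Real.sqrt_pos.2 hlog
  have hRR : R ^ 2 = Real.log ((s : ℝ) + 2) := Real.sq_sqrt hlog.le
  have hFl : ∀ a b, G.Adj a b → F a b ≤ 7 * R * ℓ s(a, b) := by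
    intro a b hab
    have hl := hℓ s(a, b) hab
    refine (hFN a b).1.trans ?_
    rw [Real.sqrt_le_left (by positivity)]
    refine (hNl a b hab).trans ?_
    rw [← hRR]
    nlinarith [mul_nonneg (sq_nonneg R) (sq_nonneg (ℓ s(a, b)))]
  have hFd : ∀ a b, F a b ≤ 7 * R * pathDist G ℓ a b := fun a b =>
    pathDist_semi hc (by positivity) (fun x => hF.self x) (fun x y z => hF.tri x y z) hFl a b
  refine ((hF.smul (by norm_num : (0 : ℝ) ≤ 2 * 10 ^ 6)).comap
    (Subtype.val : ↥(⋃ i, L i) → V)).embeds (fun x y => ?_) fun x y => ?_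
  · show pathDist G ℓ x y ≤ 2 * 10 ^ 6 * F x y
    have hF0 := hF.nonneg x.1 y.1
    rcases (hd.nonneg x.1 y.1).eq_or_lt with h0 | h0
    · rw [← h0]
      positivity
    · obtain ⟨i, hi⟩ := Set.mem_iUnion.1 x.2
      obtain ⟨j, hj⟩ := Set.mem_iUnion.1 y.2
      have h1 := hNx x.1 y.1 0 (by linarith) h0 ⟨i, x.1, hi, by rw [hd.self]; linarith⟩
        ⟨j, y.1, hj, by rw [hd.self]; linarith⟩
      have h2 : pathDist G ℓ x y ≤ 10 ^ 6 * √(N x y) := by
        have e : 10 ^ 6 * √(N x.1 y.1) = √(10 ^ 12 * N x.1 y.1) := by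
          rw [Real.sqrt_mul (by norm_num), show (10 : ℝ) ^ 12 = (10 ^ 6) ^ 2 by norm_num,
            Real.sqrt_sq (by norm_num)]
        rw [e]
        exact Real.le_sqrt_of_sq_le h1
      have h3 := (hFN x.1 y.1).2
      linarith
  · show 2 * 10 ^ 6 * F x y ≤ _
    have := hFd x.1 y.1
    have e : 14 * 10 ^ 6 * R * pathDist G ℓ x y = 2 * 10 ^ 6 * (7 * R * pathDist G ℓ x y) := by
      ring
    rw [e]
    linarith

/-- the union of `s` lanes of one nonexpansive function in a plane graph has distortion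
`O(√log (s + 2))` -/
theorem lanes_all : RowLanes := rowLanesD var_all

end Vale.Agent.P235.Kpr
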