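import Vale.Agent.P235.R2.H718.DescV
import Vale.Agent.P235.R2.H907.VarK
import Vale.Agent.P235.R2.H341.KrAll

/-!
# The map at a variable scale, and unions of lanes, in graphs without a `K_r` minor (helper718)
-/

set_option autoImplicit false

namespace Vale.Agent.P235.Kr

open Vale.Agent.P235

theorem padK_all : RowPadK := R2.H907.KprPadK.rowPadK Kpr.rowPot Kpr.rowCount (rowK2 rowK1)

/-- the map at a variable scale in a graph without a `K_r` minor -/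
theorem varK_all {r : ℕ} {V : Type} [Finite V] {G : SimpleGraph V} {ℓ : Sym2 V → ℝ}
    (hc : G.Connected) (hK : NoK r G) (hℓ : ∀ e ∈ G.edgeSet, 0 < ℓ e) :
    Ulg.Var G ℓ ((1000 * ((r : ℝ) + 2) ^ 3) ^ 2) := by
  intro τ hτ0 hτl
  obtain ⟨N, h1, h2, h3⟩ := R2.H907.VarK.rowVarK padK_all V G ℓ r hc hK hℓ τ hτ0 hτl
  refine ⟨N, h1, h2, fun x y hx hxy => ?_⟩
  have e : (1000 * ((r : ℝ) + 2) ^ 3) ^ 2 = 10 ^ 6 * ((r : ℝ) + 2) ^ 6 := by ring
  rw [e]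
  exact h3 x y hx hxy

/-- the union of `s` lanes of one nonexpansive function in a graph without a `K_r` minor has
distortion `O((r + 2)^3 √log (s + 2))` -/
theorem lanesK_all {r : ℕ} {V : Type} [Finite V] {G : SimpleGraph V} {ℓ : Sym2 V → ℝ}
    (hc : G.Connected) (hK : NoK r G) (hℓ : ∀ e ∈ G.edgeSet, 0 < ℓ e) {u : V → ℝ}
    (hu : ∀ a b, |u a - u b| ≤ pathDist G ℓ a b) {s : ℕ} {L : Fin s → Set V}
    (hL : ∀ i, ∀ a ∈ L i, ∀ b ∈ L i, pathDist G ℓ a b ≤ |u a - u b|) :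
    EmbedsL1 (fun x y : ↥(⋃ i, L i) => pathDist G ℓ x y)
      (140000 * ((r : ℝ) + 2) ^ 3 * √(Real.log ((s : ℝ) + 2))) := by
  have hr : (1 : ℝ) ≤ ((r : ℝ) + 2) ^ 3 := one_le_pow₀ (by
    have : (0 : ℝ) ≤ r := Nat.cast_nonneg r
    linarith)
  have h := Kpr.lanesV hc hℓ (by linarith : (1 : ℝ) ≤ 1000 * ((r : ℝ) + 2) ^ 3)
    (varK_all hc hK hℓ) hu hL
  have e : 140 * (1000 * ((r : ℝ) + 2) ^ 3) = 140000 * ((r : ℝ) + 2) ^ 3 := by ring
  rwa [e] at h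

end Vale.Agent.P235.Kr
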