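import Vale.Agent.P235.R2.H718.DescSpec
import Vale.Agent.P235.R2.H802.Uni
import Vale.Agent.P235.H536.Round

/-!
# Unions of `m` sets at the price `log m`: the rows (helper718)
-/

set_option autoImplicit false

namespace Vale.Agent.P235.Ulg

open Vale.Agent.P235

/-- (A) one set: an `L₁` metric on all vertices which separates the points near `X` -/
def RowA : Prop :=
  ∀ (V : Type) [Finite V] (G : SimpleGraph V) (ℓ : Sym2 V → ℝ), G.Connected →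
    (∀ e ∈ G.edgeSet, 0 < ℓ e) → ∀ E : ℝ, 1 ≤ E → Uni.Retr G ℓ E → ∀ (X : Set V) (B : ℝ),
    X.Nonempty → 1 ≤ B → EmbedsL1 (fun u v : X => pathDist G ℓ u v) B →
    ∃ F : V → V → ℝ, IsL1 F ∧ (∀ u v, F u v ≤ (E + 3) * B * pathDist G ℓ u v) ∧
      ∀ ν : V → V, Near G ℓ X ν → ∀ x y,
        pathDist G ℓ x y - 6 * pathDist G ℓ x (ν x) ≤ F x y

/-- (B) the Voronoi cells of the members of `S` -/
def RowB : Prop :=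
  ∀ (V : Type) [Finite V] (G : SimpleGraph V) (ℓ : Sym2 V → ℝ), G.Connected →
    (∀ e ∈ G.edgeSet, 0 < ℓ e) → ∀ (ι : Type) [Fintype ι] [DecidableEq ι] (K : ℝ), 1 ≤ K →
    ∀ (F : ι → V → V → ℝ) (D : ι → V → ℝ), (∀ i, IsL1 (F i)) →
    (∀ i u v, G.Adj u v → F i u v ≤ K * ℓ s(u, v)) → (∀ i v, 0 ≤ D i v) →
    (∀ i u v, G.Adj u v → |D i u - D i v| ≤ ℓ s(u, v)) → ∀ S : Finset ι,
    ∃ Φ : V → V → ℝ, IsL1 Φ ∧ (∀ u v, G.Adj u v → Φ u v ≤ 4 * K * ℓ s(u, v)) ∧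
      ∀ x y t, 0 < t → ∀ i ∈ S,
        (∀ k ∈ S, k ≠ i → 2 * t + D i x ≤ D k x ∧ 2 * t + D i y ≤ D k y) →
        min (F i x y) t ≤ 2000 * Φ x y

/-- (C) weights on the subsets -/
def RowC : Prop :=
  ∀ (ι : Type) [Fintype ι] [DecidableEq ι] (j : ℕ), ∃ w : Finset ι → ℝ, (∀ S, 0 ≤ w S) ∧
    ∑ S, w S = 1 ∧ ∀ Q C : Finset ι, C ⊆ Q → 2 ^ j ≤ Q.card → Q.card < 2 ^ (j + 1) →
      Q.card ≤ 2 * C.card →
      (1 : ℝ) / 18 ≤ ∑ S ∈ Finset.univ.filter (fun S : Finset ι => ∃ i ∈ C, S ∩ Q = {i}), w S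

/-- one map at a variable scale, with the constant `T` -/
def Var {V : Type} (G : SimpleGraph V) (ℓ : Sym2 V → ℝ) (T : ℝ) : Prop :=
  ∀ τ : V → ℝ, (∀ v, 0 ≤ τ v) → (∀ u v, G.Adj u v → |τ u - τ v| ≤ ℓ s(u, v)) →
    ∃ N : V → V → ℝ, IsSq N ∧ (∀ u v, G.Adj u v → N u v ≤ 12 * ℓ s(u, v) ^ 2) ∧
      ∀ x y, 0 < τ x → τ x ≤ 2 * pathDist G ℓ x y → τ x ^ 2 ≤ T * N x y

/-- (D) the square metric for growth -/
def RowD : Prop :=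
  ∀ (V : Type) [Finite V] (G : SimpleGraph V) (ℓ : Sym2 V → ℝ), G.Connected →
    (∀ e ∈ G.edgeSet, 0 < ℓ e) → ∀ T : ℝ, 1 ≤ T → Var G ℓ T →
    ∀ (ι : Type) [Fintype ι] [DecidableEq ι] (D : ι → V → ℝ), (∀ i v, 0 ≤ D i v) →
    (∀ i u v, G.Adj u v → |D i u - D i v| ≤ ℓ s(u, v)) →
    ∃ N : V → V → ℝ, IsSq N ∧
      (∀ u v, G.Adj u v → N u v ≤ 100 * Real.log ((Fintype.card ι : ℝ) + 2) * ℓ s(u, v) ^ 2) ∧
      ∀ x y, 0 < pathDist G ℓ x y → ∀ A Q : Finset ι,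
        (∀ i, D i x ≤ pathDist G ℓ x y / 16 → i ∈ A) →
        (∀ i ∈ Q, D i x ≤ 5 * pathDist G ℓ x y) → 4 * A.card < 3 * Q.card →
        pathDist G ℓ x y ^ 2 ≤ 10 ^ 4 * T * N x y

/-- (E) the union of `m` sets -/
def RowE : Prop :=
  ∀ (V : Type) [Finite V] (G : SimpleGraph V) (ℓ : Sym2 V → ℝ), G.Connected →
    (∀ e ∈ G.edgeSet, 0 < ℓ e) → ∀ E : ℝ, 1 ≤ E → Uni.Retr G ℓ E → ∀ T : ℝ, 1 ≤ T →
    Var G ℓ (T ^ 2) → ∀ (m : ℕ) (X : Fin m → Set V) (B : ℝ), 1 ≤ B →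
    (∀ i, EmbedsL1 (fun u v : X i => pathDist G ℓ u v) B) →
    EmbedsL1 (fun u v : ↥(⋃ i, X i) => pathDist G ℓ u v)
      (10 ^ 7 * (E + T) * B * Real.log ((m : ℝ) + 2))

end Vale.Agent.P235.Ulg
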