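import Vale.Agent.P235.R2.H686.KlSpec
import Vale.Agent.P235.R2.H718.Desc

/-!
# Lanes with a base point in graphs without a `K_r` minor (helper718, after helper802)
-/

set_option autoImplicit false
set_option linter.all false

namespace Vale.Agent.P235.Kl

open Finset Vale.Agent.P235 Vale.Agent.P235.Kr H206 H536 H341W

/-- (B) -/
theorem rowLanesP (hA : RowVarP) : RowLanesP 100 := by
  intro r V _ G ℓ hc hK hℓ H hH hHl n L u hn hL hu hiso ν hν
  classical
  have := Fintype.ofFinite V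
  have : Nonempty (Fin n) := ⟨⟨0, hn⟩⟩
  have hd := pathDist_isMet hc hℓ
  have hH0 : ∀ v, 0 ≤ H v := fun v => (hH v).le
  have hHd : ∀ x y, |H x - H y| ≤ pathDist G ℓ x y := pathDist_gen hc hHl
  obtain ⟨ι1, _, w1, g1, hw1, hs1, hb1, hm1, hl1, -, hn1⟩ := fan' fan (fun _ : V => ())
    u H hH0
  obtain ⟨ι2, _, w2, g2, hw2, hs2, hb2, hm2, hl2, -, -⟩ := fan' fan (fun _ : V => ())
    (fun v => pathDist G ℓ v (ν v)) H hH0
  choose ν' hν' using fun i => exists_near (X := L i) hc hℓ (hL i)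
  -- the truncated distances to the lanes
  let D : Fin n → V → ℝ := fun i x => min (pathDist G ℓ x (ν' i x) / 2) (H x)
  have hDs : ∀ i x, D i x = min (pathDist G ℓ x (ν' i x) / 2) (H x) := fun _ _ => rfl
  have hD0 : ∀ i x, 0 ≤ D i x := fun i x => le_min (by have := hd.nonneg x (ν' i x); linarith) (hH0 x)
  have hDl : ∀ i x y, |D i x - D i y| ≤ pathDist G ℓ x y := by
    intro i x y
    rw [hDs, hDs]
    refine (abs_min_sub_min_le_max _ _ _ _).trans (max_le ?_ (hHd x y))
    have e1 := (hν' i).lip hc hℓ x y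
    have e2 := (hν' i).lip hc hℓ y x
    have e3 := hd.nonneg x y
    rw [hd.symm y x] at e2
    rw [abs_le]; constructor <;> linarith
  have hDa : ∀ i x y, G.Adj x y → |D i x - D i y| ≤ ℓ s(x, y) := fun i x y hxy =>
    (hDl i x y).trans (pathDist_adj hℓ hxy)
  obtain ⟨J, hJ⟩ : ∃ J, J = Nat.log 2 n := ⟨_, rfl⟩
  have hτ : ∀ j : Fin (J + 1), ∃ τ : V → ℝ, (∀ v, 0 ≤ τ v) ∧
      (∀ a b, G.Adj a b → |τ a - τ b| ≤ ℓ s(a, b)) ∧
      (∀ v t, ∀ A : Finset (Fin n), (∀ i ∈ A, D i v ≤ t) → 2 ^ (j : ℕ) ≤ A.card → τ v ≤ t) ∧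
      ∀ v t, (∀ A : Finset (Fin n), (∀ i ∈ A, D i v ≤ t) → A.card < 2 ^ (j : ℕ)) → t < τ v := by
    intro j
    refine Kpr.orderStat D hD0 hDa (by positivity) ?_
    rw [Fintype.card_fin]
    exact Nat.pow_le_of_le_log hn.ne' (by have := j.2; omega)
  choose τ hτ0 hτl hτle hτlt using hτ
  have hτH : ∀ j v, τ j v ≤ H v := by
    intro j v
    refine hτle j v (H v) Finset.univ (fun i _ => min_le_right _ _) ?_
    rw [Finset.card_univ, Fintype.card_fin]
    exact Nat.pow_le_of_le_log hn.ne' (by have := j.2; omega)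
  choose N hNs hNe hNb hNx using fun j => hA r V G ℓ hc hK hℓ (τ j) (hτ0 j) (hτl j)
  obtain ⟨q, hq⟩ : ∃ q : ℝ, q = ((r : ℝ) + 2) ^ 6 := ⟨_, rfl⟩
  have hq1 : 1 ≤ q := by
    rw [hq]
    refine one_le_pow₀ ?_
    have : (0 : ℝ) ≤ r := Nat.cast_nonneg r
    linarith
  have hlogJ : ((J : ℝ) + 1) ≤ 3 * Real.log ((n : ℝ) + 2) := by
    have h1 := _root_.Vale.Agent.P235.log_add_two n
    rw [← hJ] at h1
    push_cast at h1
    linarith
  have hJ1 : (1 : ℝ) ≤ (J : ℝ) + 1 := by
    have : (0 : ℝ) ≤ (J : ℝ) := Nat.cast_nonneg _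
    linarith
  let N1 : Option V → Option V → ℝ := fun a b =>
    ∑ i, (4 * w1 i) * (a.elim 0 (g1 i) - b.elim 0 (g1 i)) ^ 2
  let N2 : Option V → Option V → ℝ := fun a b =>
    ∑ i, (16 * w2 i) * (a.elim 0 (g2 i) - b.elim 0 (g2 i)) ^ 2
  let N3 : Option V → Option V → ℝ := fun a b => q * ∑ j, N j a b
  have hN1 : IsSq N1 := ⟨ι1, inferInstance, fun i => 4 * w1 i, fun i a => a.elim 0 (g1 i),
    fun i => mul_nonneg (by norm_num) (hw1 i), fun _ _ => rfl⟩
  have hN2 : IsSq N2 := ⟨ι2, inferInstance, fun i => 16 * w2 i, fun i a => a.elim 0 (g2 i),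
    fun i => mul_nonneg (by norm_num) (hw2 i), fun _ _ => rfl⟩
  have hN3 : IsSq N3 := by
    obtain ⟨κ, _, w, g, hw, hg⟩ := IsSq.sum Finset.univ (fun j => N j) fun j _ => hNs j
    refine ⟨κ, inferInstance, fun i => q * w i, g, fun i => mul_nonneg (by linarith) (hw i),
      fun x y => ?_⟩
    show q * ∑ j, N j x y = _
    have h1 := hg x y
    simp only at h1
    rw [h1, Finset.mul_sum]
    exact Finset.sum_congr rfl fun i _ => by ring
  have hn1' : ∀ a b, 0 ≤ N1 a b := hN1.nonneg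
  have hn2' : ∀ a b, 0 ≤ N2 a b := hN2.nonneg
  have hn3' : ∀ a b, 0 ≤ N3 a b := hN3.nonneg
  have hsq : ∀ a b : ℝ, |a| ≤ b → a ^ 2 ≤ b ^ 2 := fun a b ha => by
    rw [← sq_abs a]
    exact pow_le_pow_left₀ (abs_nonneg a) ha 2
  have bound : ∀ (ι : Type) [Fintype ι] (w f : ι → ℝ) (c B : ℝ), (∀ i, 0 ≤ w i) →
      ∑ i, w i = 1 → 0 ≤ c → (∀ i, |f i| ≤ B) → ∑ i, (c * w i) * f i ^ 2 ≤ c * B ^ 2 := by
    intro ι _ w f c B hw hs hc' hf
    have h1 : ∀ i ∈ Finset.univ, (c * w i) * f i ^ 2 ≤ (c * B ^ 2) * w i := by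
      intro i _
      have h2 := mul_le_mul_of_nonneg_left (hsq _ _ (hf i)) (mul_nonneg hc' (hw i))
      linarith
    refine (Finset.sum_le_sum h1).trans ?_
    rw [← Finset.mul_sum, hs, mul_one]
  have lower : ∀ (ι : Type) [Fintype ι] (w f : ι → ℝ) (c t : ℝ), (∀ i, 0 ≤ w i) →
      ∑ i, w i = 1 → 0 ≤ c → 0 ≤ t → t ≤ ∑ i, w i * |f i| → c * t ^ 2 ≤
        ∑ i, (c * w i) * f i ^ 2 := by
    intro ι _ w f c t hw hs hc' ht hf
    have h1 := wsum_sq (a := fun i => |f i|) hw hs
    have h2 : t ^ 2 ≤ (∑ i, w i * |f i|) ^ 2 := pow_le_pow_left₀ ht hf 2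
    have h3 : ∑ i, (c * w i) * f i ^ 2 = c * ∑ i, w i * |f i| ^ 2 := by
      rw [Finset.mul_sum]
      refine Finset.sum_congr rfl fun i _ => ?_
      rw [sq_abs]
      ring
    rw [h3]
    exact mul_le_mul_of_nonneg_left (h2.trans h1) hc'
  have hlog2 : 3 / 5 < Real.log ((n : ℝ) + 2) := by
    have h1 : Real.log 2 ≤ Real.log ((n : ℝ) + 2) := Real.log_le_log (by norm_num) (by
      have : (0 : ℝ) ≤ n := Nat.cast_nonneg n
      linarith)
    have h2 := Real.log_two_gt_d9
    linarith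
  have fin3 : ∀ a b : Option V, ∀ c S : ℝ, 0 ≤ c → N1 a b ≤ 4 * c → N2 a b ≤ 16 * c →
      S ≤ ((J : ℝ) + 1) * (12 * c) → S = ∑ j, N j a b →
      (N1 a b + N2 a b) + N3 a b ≤ 100 * ((r : ℝ) + 2) ^ 6 * Real.log ((n : ℝ) + 2) * c := by
    intro a b c S hc0 h1 h2 h3 hS
    have h4 : N3 a b = q * S := by rw [hS]
    rw [h4, ← hq]
    obtain ⟨Λ, hΛ⟩ : ∃ Λ, Λ = Real.log ((n : ℝ) + 2) := ⟨_, rfl⟩
    rw [← hΛ] at hlogJ hlog2 ⊢
    have h5 : ((J : ℝ) + 1) * (12 * c) ≤ 36 * (Λ * c) := by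
      have := mul_le_mul_of_nonneg_right hlogJ hc0
      linarith
    have h6 : q * S ≤ 36 * (q * (Λ * c)) := by
      have := mul_le_mul_of_nonneg_left (h3.trans h5) (by linarith : (0 : ℝ) ≤ q)
      linarith
    have h7 : 3 / 5 * c ≤ Λ * c := mul_le_mul_of_nonneg_right hlog2.le hc0
    have h8 : 1 * (Λ * c) ≤ q * (Λ * c) := mul_le_mul_of_nonneg_right hq1 (by linarith)
    nlinarith
  refine ⟨fun a b => (N1 a b + N2 a b) + N3 a b, (hN1.add hN2).add hN3, ?_, ?_, ?_, ?_⟩
  · -- edges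
    intro a b hab
    have hl0 : 0 < ℓ s(a, b) := hℓ _ hab
    have hadj := pathDist_adj hℓ hab
    have f1 : N1 (some a) (some b) ≤ 4 * ℓ s(a, b) ^ 2 := by
      refine bound ι1 w1 (fun i => g1 i a - g1 i b) 4 _ hw1 hs1 (by norm_num) fun i => ?_
      exact (hm1 i a b rfl).trans (max_le ((hu a b).trans hadj) (hHl a b hab))
    have f2 : N2 (some a) (some b) ≤ 16 * ℓ s(a, b) ^ 2 := by
      refine bound ι2 w2 (fun i => g2 i a - g2 i b) 16 _ hw2 hs2 (by norm_num) fun i => ?_
      refine (hm2 i a b rfl).trans (max_le ?_ (hHl a b hab))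
      have a1 := hν.lip hc hℓ a b
      have a2 := hν.lip hc hℓ b a
      rw [hd.symm b a] at a2
      rw [abs_le]; constructor <;> linarith
    have f3 : ∑ j, N j (some a) (some b) ≤ ((J : ℝ) + 1) * (12 * ℓ s(a, b) ^ 2) := by
      refine (Finset.sum_le_sum fun j _ => hNe j a b hab).trans (le_of_eq ?_)
      rw [Finset.sum_const, Finset.card_univ, Fintype.card_fin, nsmul_eq_mul]
      push_cast
      ring
    exact fin3 _ _ _ _ (sq_nonneg _) f1 f2 f3 rfl
  · -- upper bound at the base point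
    intro v
    have f1 : N1 (some v) none ≤ 4 * H v ^ 2 := by
      refine bound ι1 w1 (fun i => g1 i v - 0) 4 _ hw1 hs1 (by norm_num) fun i => ?_
      rw [sub_zero]; exact hb1 i v
    have f2 : N2 (some v) none ≤ 16 * H v ^ 2 := by
      refine bound ι2 w2 (fun i => g2 i v - 0) 16 _ hw2 hs2 (by norm_num) fun i => ?_
      rw [sub_zero]; exact hb2 i v
    have f3 : ∑ j, N j (some v) none ≤ ((J : ℝ) + 1) * (12 * H v ^ 2) := by
      refine (Finset.sum_le_sum fun j _ => (hNb j v).trans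
        (mul_le_mul_of_nonneg_left (pow_le_pow_left₀ (hτ0 j v) (hτH j v) 2)
          (by norm_num : (0 : ℝ) ≤ 12))).trans (le_of_eq ?_)
      rw [Finset.sum_const, Finset.card_univ, Fintype.card_fin, nsmul_eq_mul]
      push_cast
      ring
    exact fin3 _ _ _ _ (sq_nonneg _) f1 f2 f3 rfl
  · -- lower bound at the base point
    intro v
    have f1 : 4 * (1 / 2000 * H v) ^ 2 ≤ N1 (some v) none := by
      refine lower ι1 w1 (fun i => g1 i v - 0) 4 _ hw1 hs1 (by norm_num)
        (mul_nonneg (by norm_num) (hH0 v)) ?_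
      refine (hn1 v).trans (le_of_eq ?_)
      refine Finset.sum_congr rfl fun i _ => ?_
      rw [sub_zero]
    have := hn2' (some v) none
    have := hn3' (some v) none
    show H v ^ 2 ≤ 4000000 * (N1 (some v) none + N2 (some v) none + N3 (some v) none)
    nlinarith [sq_nonneg (H v)]
  · -- separation
    intro x y δ hδ hx hy hxy hxν
    show δ ^ 2 ≤ 4000000 * (N1 (some x) (some y) + N2 (some x) (some y) + N3 (some x) (some y))
    have p1 := hn1' (some x) (some y)
    have p2 := hn2' (some x) (some y)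
    have p3 := hn3' (some x) (some y)
    by_cases hcase : δ / 4 ≤ |pathDist G ℓ x (ν x) - pathDist G ℓ y (ν y)|
    · have h3 : δ / 4 ≤ min |pathDist G ℓ x (ν x) - pathDist G ℓ y (ν y)| (H x + H y) :=
        le_min hcase (by linarith)
      have f2 : 16 * (1 / 2000 * (δ / 4)) ^ 2 ≤ N2 (some x) (some y) := by
        refine lower ι2 w2 (fun i => g2 i x - g2 i y) 16 _ hw2 hs2 (by norm_num)
          (by positivity) ?_
        refine le_trans ?_ (hl2 x y rfl)
        exact mul_le_mul_of_nonneg_left h3 (by norm_num)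
      nlinarith
    push Not at hcase
    have h3 := (abs_lt.1 hcase).1
    have hsy : pathDist G ℓ y (ν y) < 5 / 4 * δ := by linarith
    by_cases hcase2 : δ / 2 ≤ |u x - u y|
    · have h4 : δ / 2 ≤ min |u x - u y| (H x + H y) := le_min hcase2 (by linarith)
      have f2 : 4 * (1 / 2000 * (δ / 2)) ^ 2 ≤ N1 (some x) (some y) := by
        refine lower ι1 w1 (fun i => g1 i x - g1 i y) 4 _ hw1 hs1 (by norm_num)
          (by positivity) ?_
        refine le_trans ?_ (hl1 x y rfl)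
        exact mul_le_mul_of_nonneg_left h4 (by norm_num)
      nlinarith
    push Not at hcase2
    have hno : ∀ i, ¬ (D i x ≤ 15 / 16 * δ ∧ D i y ≤ 15 / 16 * δ) := by
      rintro i ⟨h1, h2⟩
      rw [hDs, min_le_iff] at h1 h2
      have h1' : pathDist G ℓ x (ν' i x) ≤ 15 / 8 * δ := by
        rcases h1 with h1 | h1 <;> linarith
      have h2' : pathDist G ℓ y (ν' i y) ≤ 15 / 8 * δ := by
        rcases h2 with h2 | h2 <;> linarith
      have h3 := hiso i (ν' i x) ((hν' i).mem x) (ν' i y) ((hν' i).mem y)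
      have h4 := hu x (ν' i x)
      have h5 := hu y (ν' i y)
      have h6 : |u (ν' i x) - u (ν' i y)| ≤ |u x - u y| + |u x - u (ν' i x)| +
          |u y - u (ν' i y)| := by
        have e : u (ν' i x) - u (ν' i y) = (u x - u y) + -(u x - u (ν' i x)) +
          (u y - u (ν' i y)) := by ring
        rw [e]
        refine (abs_add_three _ _ _).trans ?_
        rw [abs_neg]
      have h7 := hd.tri x (ν' i x) y
      have h8 := hd.tri (ν' i x) (ν' i y) y
      rw [hd.symm (ν' i y) y] at h8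
      linarith
    have hin : ∀ a, ∃ i, D i a ≤ pathDist G ℓ a (ν a) / 2 := by
      intro a
      obtain ⟨i, hi⟩ := Set.mem_iUnion.1 (hν.mem a)
      refine ⟨i, (min_le_left _ _).trans ?_⟩
      have := (hν' i).le a _ hi
      linarith
    -- the half
    have half : ∀ x y, 8 * δ ≤ pathDist G ℓ x y →
        (∀ i, ¬ (D i x ≤ 15 / 16 * δ ∧ D i y ≤ 15 / 16 * δ)) → (∃ i, D i x ≤ 15 / 16 * δ) →
        (Finset.univ.filter fun i => D i x ≤ 15 / 16 * δ).card ≤
          (Finset.univ.filter fun i => D i y ≤ 15 / 16 * δ).card →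
        δ ^ 2 ≤ 4000000 * (q * ∑ j, N j (some x) (some y)) := by
      intro x y hxy hdis hx hcard
      obtain ⟨A, hAd⟩ : ∃ A, A = Finset.univ.filter fun i => D i x ≤ 15 / 16 * δ := ⟨_, rfl⟩
      obtain ⟨B, hBd⟩ : ∃ B, B = Finset.univ.filter fun i => D i y ≤ 15 / 16 * δ := ⟨_, rfl⟩
      have hAm : ∀ i, i ∈ A ↔ D i x ≤ 15 / 16 * δ := fun i => by rw [hAd]; simp
      have hBm : ∀ i, i ∈ B ↔ D i y ≤ 15 / 16 * δ := fun i => by rw [hBd]; simp
      rw [← hAd, ← hBd] at hcard
      have hApos : A.card ≠ 0 := by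
        obtain ⟨i, hi⟩ := hx
        exact Finset.card_ne_zero_of_mem ((hAm i).2 hi)
      have hdisj : Disjoint A B := by
        rw [Finset.disjoint_left]
        intro i h1 h2
        exact hdis i ⟨(hAm i).1 h1, (hBm i).1 h2⟩
      have hlt : A.card < 2 ^ (Nat.log 2 A.card + 1) := Nat.lt_pow_succ_log_self (by norm_num) _
      have hle : 2 ^ (Nat.log 2 A.card + 1) ≤ (A ∪ B).card := by
        rw [Finset.card_union_of_disjoint hdisj]
        have h1 : 2 ^ Nat.log 2 A.card ≤ A.card := Nat.pow_log_le_self 2 hApos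
        rw [pow_succ]
        omega
      have hJle : Nat.log 2 A.card + 1 ≤ J := by
        rw [hJ]
        refine Nat.le_log_of_pow_le (by norm_num) (hle.trans ?_)
        have := Finset.card_le_univ (A ∪ B)
        rwa [Fintype.card_fin] at this
      let j : Fin (J + 1) := ⟨Nat.log 2 A.card + 1, by omega⟩
      have h1 : τ j x ≤ 2 * pathDist G ℓ x y := by
        refine hτle j x _ (A ∪ B) (fun i hi => ?_) hle
        rcases Finset.mem_union.1 hi with h | h
        · have := (hAm i).1 h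
          linarith
        · have h2 := (hBm i).1 h
          have h3 := (abs_le.1 (hDl i x y)).2
          linarith
      have h2 : 15 / 16 * δ < τ j x := by
        refine hτlt j x (15 / 16 * δ) fun A' hA' => ?_
        have h3 : A' ⊆ A := fun i hi => (hAm i).2 (hA' i hi)
        exact (Finset.card_le_card h3).trans_lt hlt
      have h3 := hNx j x y (by linarith) h1
      have h4 : N j (some x) (some y) ≤ ∑ j, N j (some x) (some y) :=
        Finset.single_le_sum (f := fun j => N j (some x) (some y))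
          (fun j _ => (hNs j).nonneg (some x) (some y)) (Finset.mem_univ j)
      have h5 : (15 / 16 * δ) ^ 2 ≤ τ j x ^ 2 := pow_le_pow_left₀ (by positivity) h2.le 2
      have e : (1000 * ((r : ℝ) + 2) ^ 3) ^ 2 = 10 ^ 6 * q := by rw [hq]; ring
      rw [e] at h3
      have h6 := mul_le_mul_of_nonneg_left h4 (by linarith : (0 : ℝ) ≤ q)
      nlinarith
    have hxA : ∃ i, D i x ≤ 15 / 16 * δ := by
      obtain ⟨i, hi⟩ := hin x
      exact ⟨i, by linarith⟩
    have hyA : ∃ i, D i y ≤ 15 / 16 * δ := by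
      obtain ⟨i, hi⟩ := hin y
      exact ⟨i, by linarith⟩
    rcases le_total (Finset.univ.filter fun i => D i x ≤ 15 / 16 * δ).card
      (Finset.univ.filter fun i => D i y ≤ 15 / 16 * δ).card with h | h
    · have h1 := half x y hxy hno hxA h
      have h2 : N3 (some x) (some y) = q * ∑ j, N j (some x) (some y) := rfl
      rw [h2]
      linarith
    · have e := hd.symm x y
      have h1 := half y x (by rw [← e]; exact hxy) (fun i hi => hno i ⟨hi.2, hi.1⟩) hyA h
      have h2 : N3 (some y) (some x) = q * ∑ j, N j (some y) (some x) := rfl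
      rw [← h2, hN3.symm] at h1
      linarith

end Vale.Agent.P235.Kl
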