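import Vale.Agent.P235.R2.H718.LanesP
import Vale.Agent.P235.R2.H718.LanesK
import Vale.Agent.P235.R2.H907.VarP

/-!
# Lanes with a base point in graphs without a `K_r` minor, no hypothesis left (helper718)
-/

set_option autoImplicit false

namespace Vale.Agent.P235.Kl

open Vale.Agent.P235 Vale.Agent.P235.Kr

theorem RowLanesP.mono {C C' : ℝ} (hC : C ≤ C') (h : RowLanesP C) : RowLanesP C' := by
  intro r V _ G ℓ hc hK hℓ H hH hHl n L u hn hL hu hiso ν hν
  obtain ⟨N, h1, h2, h3, h4, h5⟩ := h r V G ℓ hc hK hℓ H hH hHl n L u hn hL hu hiso ν hν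
  have hlog : 0 ≤ Real.log ((n : ℝ) + 2) := Real.log_nonneg (by
    have : (0 : ℝ) ≤ n := Nat.cast_nonneg n
    linarith)
  have hq : 0 ≤ ((r : ℝ) + 2) ^ 6 * Real.log ((n : ℝ) + 2) := by positivity
  have hmul : ∀ c : ℝ, 0 ≤ c → C * ((r : ℝ) + 2) ^ 6 * Real.log ((n : ℝ) + 2) * c ≤
      C' * ((r : ℝ) + 2) ^ 6 * Real.log ((n : ℝ) + 2) * c := by
    intro c hc0
    have := mul_le_mul_of_nonneg_right hC (mul_nonneg hq hc0)
    linarith
  exact ⟨N, h1, fun a b hab => (h2 a b hab).trans (hmul _ (sq_nonneg _)),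
    fun v => (h3 v).trans (hmul _ (sq_nonneg _)), h4, h5⟩

theorem varP_all : RowVarP := R2.H907.VarP.rowVarP padK_all

/-- unions of lanes in graphs without a `K_r` minor, with a base point -/
theorem lanesP_all : RowLanesP 384 := (rowLanesP varP_all).mono (by norm_num)

end Vale.Agent.P235.Kl
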