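import Vale.Agent.P235.R2.H721.KprPad
import Vale.Agent.P235.R2.H718.Var
import Vale.Agent.P235.R2.H582.KprStage
import Vale.Agent.P235.R2.H611.KprR1
import Vale.Agent.P235.R2.H680.RowPot
import Vale.Agent.P235.R2.H907.RowCount
import Vale.Agent.P235.R2.H90.KprDiam

/-!
# Measured descent: the rows without hypotheses (helper718)
-/

set_option autoImplicit false

namespace Vale.Agent.P235.Kpr

/-- padded random partitions of a plane graph -/
theorem pad_all : RowPad := R2.H721.rowPad rowPot rowCount (rowDiam rowMinor rowStage)

/-- one map at a variable scale -/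
theorem var_all : RowVar := rowVar pad_all

end Vale.Agent.P235.Kpr
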