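import Vale.Agent.P235.Comp.Defs
import Vale.Agent.P235.R2.H341.W3

/-!
# Separators by three chains: the row (helper718)
-/

namespace Vale.Agent.P235.H718

/-- the chain of `a` -/
def chain {V : Type} (p : V → V) (s a : V) : Set V := {v | H341W.Orb p s a v}

/-- **separators**: for every finite set `A` three chains can be removed such that every component
which is left contains at most `2/3` of the points of `A` -/
def Seps {V : Type} (G : SimpleGraph V) (p : V → V) (s : V) : Prop :=
  ∀ A : Finset V, ∃ a : Fin 3 → V, ∀ v ∉ ⋃ i, chain p s (a i), ∀ B ⊆ A,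
    (∀ b ∈ B, b ∈ compSet G (⋃ i, chain p s (a i)) v) → 3 * B.card ≤ 2 * A.card

/-- the row -/
def RowSep : Prop :=
  ∀ (V : Type) [Finite V] (G : SimpleGraph V) (σ : Equiv.Perm G.Dart) (h : V → ℝ) (s : V)
    (p : V → V), G.Connected → PlaneMap G σ → (∀ v, v ≠ s → G.Adj v (p v) ∧ h (p v) < h v) →
    Seps G p s

end Vale.Agent.P235.H718
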