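import Vale.Agent.P235.R2.H718.S1
import Vale.Agent.P235.R2.H718.SqDefs

/-!
# Rounds relative to one metric, square root bound: leaves, recursion (helper718)
-/

namespace Vale.Agent.P235.H718

open Finset Vale.Agent.P235

section leaf

variable {V : Type} [Finite V] {G : SimpleGraph V} {ℓ : Sym2 V → ℝ}

/-- a part of a piece which is served is served -/
theorem leaf_pointedD (hc : G.Connected) (hℓ : ∀ e ∈ G.edgeSet, 0 < ℓ e) {W : Type} [Finite W]
    [Nonempty W] {G₁ : SimpleGraph W} {ι : W → V} (hadj : ∀ a b, G₁.Adj a b → G.Adj (ι a) (ι b))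
    {S : Set V} (hιS : ∀ a, ι a ∈ S) {W' : Type} {G' : SimpleGraph W'} {ℓ' : Sym2 W' → ℝ}
    {κ : S → W'} (hp : H341W.Piece G ℓ S G' ℓ' κ) {K : ℝ} (hK : 0 ≤ K)
    (h : ∀ H : W' → ℝ, (∀ v, 0 < H v) → (∀ u v, G'.Adj u v → |H u - H v| ≤ ℓ' s(u, v)) →
      Pointed G' ℓ' H K) {H : W → ℝ} (hH : ∀ a, 0 < H a)
    (hHd : ∀ a b, |H a - H b| ≤ pathDist G ℓ (ι a) (ι b)) :
    H341W.PointedD G₁ (fun e => ℓ (e.map ι)) H (fun a b => pathDist G ℓ (ι a) (ι b)) K := by
  classical
  have := hp.fin
  have hd := pathDist_isMet hc hℓ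
  have hd' := pathDist_isMet hp.conn hp.pos
  have hfin : Fintype W := Fintype.ofFinite _
  let θ : W → W' := fun a => κ ⟨ι a, hιS a⟩
  have hfar : ∀ a b, pathDist G ℓ (ι a) (ι b) ≤ pathDist G' ℓ' (θ a) (θ b) := fun a b =>
    hp.far ⟨ι a, hιS a⟩ ⟨ι b, hιS b⟩
  -- a positive lower bound of `H`
  obtain ⟨a0, -, ha0⟩ := Finset.exists_min_image (Finset.univ : Finset W) H
    Finset.univ_nonempty
  -- the extension of `H`
  let M : W' → ℝ := fun w => Finset.univ.sup' Finset.univ_nonempty
    fun a : W => H a - pathDist G' ℓ' (θ a) w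
  have hM1 : ∀ a w, H a - pathDist G' ℓ' (θ a) w ≤ M w := fun a w =>
    Finset.le_sup' (fun a : W => H a - pathDist G' ℓ' (θ a) w) (Finset.mem_univ a)
  have hM2 : ∀ w, ∃ a, M w = H a - pathDist G' ℓ' (θ a) w := by
    intro w
    obtain ⟨a, -, ha⟩ := Finset.exists_mem_eq_sup' Finset.univ_nonempty
      fun a : W => H a - pathDist G' ℓ' (θ a) w
    exact ⟨a, ha⟩
  have hMκ : ∀ b, M (θ b) = H b := by
    intro b
    apply le_antisymm
    · obtain ⟨a, ha⟩ := hM2 (θ b)
      rw [ha]
      have h1 := hfar a b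
      have h2 := (le_abs_self _).trans (hHd a b)
      linarith
    · have h1 := hM1 b (θ b)
      rw [hd'.self, sub_zero] at h1
      exact h1
  have hMl : ∀ w w', M w - M w' ≤ pathDist G' ℓ' w w' := by
    intro w w'
    obtain ⟨a, ha⟩ := hM2 w
    have h1 := hM1 a w'
    have h2 := hd'.tri (θ a) w w'
    linarith
  obtain ⟨σ, h1, h2, h3, h4, h5⟩ := h (fun w => max (H a0) (M w))
    (fun w => lt_max_of_lt_left (hH a0)) (fun w w' hw => by
      refine (abs_max_sub_max_le_max _ _ _ _).trans (max_le ?_ ?_)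
      · rw [sub_self, abs_zero]
        exact (hp.pos _ hw).le
      · refine le_trans ?_ (pathDist_adj hp.pos hw)
        rw [abs_le]
        have h1 := hMl w w'
        have h2 := hMl w' w
        rw [hd'.symm w' w] at h2
        constructor <;> linarith)
  have hHκ : ∀ b : W, max (H a0) (M (θ b)) = H b := by
    intro b
    rw [hMκ, max_eq_right (ha0 b (Finset.mem_univ b))]
  refine ⟨fun a b => σ (a.map θ) (b.map θ), h1.comap _, ?_, ?_, ?_, ?_⟩
  · intro a b hab
    -- the bound with `K` itself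
    have e2 : σ (some (θ a)) (some (θ b)) ≤ K * pathDist G' ℓ' (θ a) (θ b) := by
      rcases hK.lt_or_eq with hK' | hK'
      · exact pathDist_semi (G := G') (ℓ := ℓ') (ρ := fun x y => σ (some x) (some y))
          hp.conn hK' (fun x => h1.self _) (fun x y z => h1.tri _ _ _) h2 _ _
      · rw [← hK'] at h2 ⊢
        rw [zero_mul]
        have key : ∀ x y, G'.Walk x y → σ (some x) (some y) ≤ 0 := by
          intro x y p
          induction p with
          | nil => exact (h1.self _).le
          | @cons x z y hxz p ih =>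
            have q1 := h2 x z hxz
            have q2 := h1.tri (some x) (some z) (some y)
            rw [zero_mul] at q1
            linarith
        obtain ⟨p⟩ := hp.conn.preconnected (θ a) (θ b)
        exact key _ _ p
    have e3 := hp.short ⟨ι a, hιS a⟩ ⟨ι b, hιS b⟩ (hadj a b hab)
    exact e2.trans (mul_le_mul_of_nonneg_left e3 hK)
  · intro a
    have h6 := h3 (θ a)
    beta_reduce at h6
    rw [hHκ] at h6
    exact h6
  · intro a
    have h6 := h4 (θ a)
    beta_reduce at h6
    rw [hHκ] at h6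
    exact h6
  · intro a b δ ha hb hab
    exact h5 (θ a) (θ b) δ (by beta_reduce; rw [hHκ]; exact ha)
      (by beta_reduce; rw [hHκ]; exact hb) (hab.trans (hfar a b))

end leaf

section rec

variable {V : Type} [Finite V] {G : SimpleGraph V} {ℓ : Sym2 V → ℝ}

omit [Finite V] in
theorem chain_down {p : V → V} {s a v : V} (hv : v ≠ s) (h : v ∈ chain p s a) :
    p v ∈ chain p s a := H341W.orb_snoc hv h

/-- the recursion -/
theorem rec_pointed (hc : G.Connected) (hℓ : ∀ e ∈ G.edgeSet, 0 < ℓ e) {u : V → ℝ}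
    (hu : ∀ a b, |u a - u b| ≤ pathDist G ℓ a b) {p : V → V} {s : V}
    (hp : ∀ v, v ≠ s → G.Adj v (p v)) (hsep : Seps G p s)
    (hiso : ∀ c, ∀ a ∈ chain p s c, ∀ b ∈ chain p s c, pathDist G ℓ a b ≤ |u a - u b|)
    (A : Finset V) {K : ℝ} (hK : 0 ≤ K)
    (hleaf : ∀ v ∉ ⋃ a ∈ A, chain p s a, ∃ (W' : Type) (G' : SimpleGraph W') (ℓ' : Sym2 W' → ℝ)
      (κ : compSet G (⋃ a ∈ A, chain p s a) v → W'),
      H341W.Piece G ℓ (compSet G (⋃ a ∈ A, chain p s a) v) G' ℓ' κ ∧
      ∀ H : W' → ℝ, (∀ v, 0 < H v) → (∀ u v, G'.Adj u v → |H u - H v| ≤ ℓ' s(u, v)) →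
        Pointed G' ℓ' H K) (k : ℕ) :
    ∀ (W : Type) [Finite W] (G₁ : SimpleGraph W) (ι : W → V), Function.Injective ι →
      (∀ a b, G₁.Adj a b ↔ G.Adj (ι a) (ι b)) → G₁.Connected →
      (∀ v : W, ∀ w : V, w ≠ s → p w = ι v → w ∈ Set.range ι) →
      (∀ B ⊆ A, (∀ b ∈ B, b ∈ Set.range ι) → 2 ^ k * B.card < 3 ^ k) →
      ∀ H : W → ℝ, (∀ v, 0 < H v) → (∀ a b, G₁.Adj a b → |H a - H b| ≤ ℓ s(ι a, ι b)) →
      (∀ a, ∀ b ∉ Set.range ι, G.Adj (ι a) b → H a ≤ ℓ s(ι a, b)) →
      Pointed2D G₁ (fun e => ℓ (e.map ι)) H (fun a b => pathDist G ℓ (ι a) (ι b)) (4 * k) K := by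
  classical
  have := Fintype.ofFinite V
  have hd := pathDist_isMet hc hℓ
  induction k with
  | zero =>
    intro W _ G₁ ι hι hadj hconn hcl hA H hH hHl hHb
    have hne : Nonempty W := hconn.nonempty
    obtain ⟨w0⟩ := hconn.nonempty
    set X : Set V := ⋃ a ∈ A, chain p s a with hX
    -- no point of `A`
    have hno : ∀ a ∈ A, a ∉ Set.range ι := by
      intro a ha hr
      have h1 := hA {a} (by simpa using ha) (by simpa using hr)
      simp at h1
    -- closure under the chains
    have hclo : ∀ a v, H341W.Orb p s a v → v ∈ Set.range ι → a ∈ Set.range ι := by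
      intro a v h
      induction h with
      | refl => exact id
      | @tail b c _ hbc ih =>
        rintro ⟨w, hw⟩
        obtain ⟨hb, hbc⟩ := hbc
        exact ih (hcl w b hb (by rw [hw, hbc]))
    have hoff : ∀ w, ι w ∉ X := by
      intro w hw
      rw [hX, Set.mem_iUnion₂] at hw
      obtain ⟨a, ha, hw⟩ := hw
      exact hno a ha (hclo a _ hw ⟨w, rfl⟩)
    have hin : ∀ w, ι w ∈ compSet G X (ι w0) := by
      intro w
      obtain ⟨q⟩ := hconn.preconnected w0 w
      have key : ∀ x y : W, G₁.Walk x y → ReachOff G X (ι x) (ι y) := by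
        intro x y q
        induction q with
        | nil => exact ReachOff.refl (hoff _)
        | @cons x z y hxz q ih =>
          exact (ReachOff.adj (hoff _) (hoff _) ((hadj _ _).1 hxz)).trans ih
      exact key _ _ q
    obtain ⟨W', G', ℓ', κ, hpc, hP⟩ := hleaf (ι w0) (hoff w0)
    -- the extension by zero
    have hHd : ∀ a b, |H a - H b| ≤ pathDist G ℓ (ι a) (ι b) := by
      let Φ : V → ℝ := fun v => if h : ∃ w, ι w = v then H h.choose else 0
      have hΦ : ∀ w, Φ (ι w) = H w := by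
        intro w
        have h : ∃ w', ι w' = ι w := ⟨w, rfl⟩
        show (if h : ∃ w', ι w' = ι w then H h.choose else 0) = _
        rw [dif_pos h, hι h.choose_spec]
      have hΦ0 : ∀ v, v ∉ Set.range ι → Φ v = 0 := fun v hv => dif_neg fun ⟨w, hw⟩ => hv ⟨w, hw⟩
      have h1 := pathDist_gen hc (f := Φ) (ℓ := ℓ) (by
        intro x y hxy
        have hl0 := hℓ s(x, y) hxy
        by_cases hx : x ∈ Set.range ι
        · obtain ⟨a, rfl⟩ := hx
          by_cases hy : y ∈ Set.range ι
          · obtain ⟨b, rfl⟩ := hy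
            rw [hΦ, hΦ]
            exact hHl a b ((hadj _ _).2 hxy)
          · rw [hΦ, hΦ0 y hy, sub_zero, abs_of_pos (hH a)]
            exact hHb a y hy hxy
        · by_cases hy : y ∈ Set.range ι
          · obtain ⟨b, rfl⟩ := hy
            rw [hΦ, hΦ0 x hx, zero_sub, abs_neg, abs_of_pos (hH b), Sym2.eq_swap]
            exact hHb b x hx hxy.symm
          · rw [hΦ0 x hx, hΦ0 y hy, sub_zero, abs_zero]
            exact hl0.le)
      intro a b
      have h2 := h1 (ι a) (ι b)
      rwa [hΦ, hΦ] at h2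
    have h1 := pointed2D_of_pointedD (leaf_pointedD (G₁ := G₁) hc hℓ (fun a b => (hadj a b).1) hin
      hpc hK hP hH hHd)
    simpa using h1
  | succ k ih =>
    intro W _ G₁ ι hι hadj hconn hcl hA H hH hHl hHb
    obtain ⟨a, ha⟩ := hsep (A.filter fun v => v ∈ Set.range ι)
    set U : Set V := ⋃ i, chain p s (a i) with hU
    have hUd : ∀ w, w ≠ s → w ∈ U → p w ∈ U := by
      intro w hw h
      rw [hU, Set.mem_iUnion] at h ⊢
      obtain ⟨i, hi⟩ := h
      exact ⟨i, chain_down hw hi⟩
    have hchn : ∀ i, (chain p s (a i)).Nonempty := fun i => ⟨a i, Relation.ReflTransGen.refl⟩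
    choose ν hν using fun i => exists_near (X := chain p s (a i)) hc hℓ (hchn i)
    have e4 : 4 * ((k + 1 : ℕ) : ℝ) = 4 * (k : ℝ) + ((3 : ℕ) + 1) := by push_cast; ring
    rw [e4]
    refine pointed2D_step (G := G₁) (ℓ := fun e => ℓ (e.map ι)) (D := fun x y =>
      pathDist G ℓ (ι x) (ι y)) (u := fun x => u (ι x))
      (D' := fun (i : Fin 3) x => pathDist G ℓ (ι x) (ν i (ι x)))
      (P := ι ⁻¹' U) ?_ hH hHl (fun x => hd.self _) (fun x y => hd.symm _ _)
      (fun x y z => hd.tri _ _ _) ?_ ?_ ?_ ?_ ?_ (by positivity) hK ?_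
    · intro e
      induction e using Sym2.ind with
      | _ x y =>
        intro he
        exact hℓ _ ((hadj x y).1 he)
    · intro x y hxy
      exact pathDist_adj hℓ ((hadj x y).1 hxy)
    · intro x y hxy
      exact (hu _ _).trans (pathDist_adj hℓ ((hadj x y).1 hxy))
    · intro i x y hxy
      have h1 := (hν i).lip hc hℓ (ι x) (ι y)
      have h2 := (hν i).lip hc hℓ (ι y) (ι x)
      rw [hd.symm (ι y) (ι x)] at h2
      have h3 := pathDist_adj hℓ ((hadj x y).1 hxy)
      show |pathDist G ℓ (ι x) (ν i (ι x)) - pathDist G ℓ (ι y) (ν i (ι y))| ≤ ℓ s(ι x, ι y)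
      rw [abs_le]; constructor <;> linarith
    · intro i x y
      show pathDist G ℓ (ι x) (ι y) ≤ |u (ι x) - u (ι y)| +
        2 * (pathDist G ℓ (ι x) (ν i (ι x)) + pathDist G ℓ (ι y) (ν i (ι y)))
      have h3 := hiso (a i) _ ((hν i).mem (ι x)) _ ((hν i).mem (ι y))
      have h4 := hu (ι x) (ν i (ι x))
      have h5 := hu (ι y) (ν i (ι y))
      have h6 : |u (ν i (ι x)) - u (ν i (ι y))| ≤ |u (ι x) - u (ι y)| + |u (ι x) - u (ν i (ι x))| +
          |u (ι y) - u (ν i (ι y))| := by
        have e : u (ν i (ι x)) - u (ν i (ι y)) = (u (ι x) - u (ι y)) +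
            -(u (ι x) - u (ν i (ι x))) + (u (ι y) - u (ν i (ι y))) := by ring
        rw [e]
        refine (abs_add_three _ _ _).trans ?_
        rw [abs_neg]
      have h7 := hd.tri (ι x) (ν i (ι x)) (ι y)
      have h8 := hd.tri (ν i (ι x)) (ν i (ι y)) (ι y)
      rw [hd.symm (ν i (ι y)) (ι y)] at h8
      linarith
    · intro z hz
      have hz' : ι z ∈ U := hz
      rw [hU, Set.mem_iUnion] at hz'
      obtain ⟨i, hi⟩ := hz'
      exact ⟨i, fun x => (hν i).le _ _ hi⟩
    · intro v hv φ hφ0 hφP hφH hφz hφl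
      have hcomp := comp_connected (G := G₁) (X := ι ⁻¹' U) hv
      have hv' : ι v ∉ U := hv
      -- the component of the small graph lies in a component of `G - U`
      have hreach : ∀ x y, ReachOff G₁ (ι ⁻¹' U) x y → ReachOff G U (ι x) (ι y) := by
        rintro x y ⟨q, hq⟩
        have key : ∀ x y : W, ∀ q : G₁.Walk x y, (∀ z ∈ q.support, z ∉ ι ⁻¹' U) →
            ReachOff G U (ι x) (ι y) := by
          intro x y q
          induction q with
          | nil =>
            intro hq
            exact ReachOff.refl (hq _ (by simp))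
          | @cons x z y hxz q ih =>
            intro hq
            have h1 : ι x ∉ U := hq x (by simp)
            have h2 : ι z ∉ U := hq z (by simp)
            exact (ReachOff.adj h1 h2 ((hadj _ _).1 hxz)).trans
              (ih fun z hz => hq z (by simp [hz]))
        exact key x y q hq
      have hrange : ∀ w, w ∈ Set.range (fun x : compSet G₁ (ι ⁻¹' U) v => ι x.1) ↔
          ∃ x, ReachOff G₁ (ι ⁻¹' U) v x ∧ ι x = w := by
        intro w
        constructor
        · rintro ⟨x, rfl⟩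
          exact ⟨x.1, x.2, rfl⟩
        · rintro ⟨x, hx, rfl⟩
          exact ⟨⟨x, hx⟩, rfl⟩
      refine ih (compSet G₁ (ι ⁻¹' U) v) (G₁.induce (compSet G₁ (ι ⁻¹' U) v)) (fun x => ι x.1)
        (hι.comp Subtype.val_injective) (fun x y => hadj x.1 y.1) hcomp ?_ ?_ (fun x => φ x.1)
        (fun x => hφP x.1 (ReachOff.right x.2)) (fun x y hxy => hφl x.1 y.1 hxy) ?_
      · -- closed under descendants
        rintro ⟨x, hx⟩ w hw hpw
        obtain ⟨y, rfl⟩ := hcl x w hw hpw
        have hxU : ι x ∉ U := ReachOff.right (X := ι ⁻¹' U) hx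
        have hyU : ι y ∉ U := fun h => hxU (by
          have h2 := hUd (ι y) hw h
          rwa [hpw] at h2)
        have hadj' : G₁.Adj x y := by
          rw [hadj]
          have h2 := hp (ι y) hw
          rw [hpw] at h2
          exact h2.symm
        rw [hrange]
        exact ⟨y, ReachOff.trans hx (ReachOff.adj hxU hyU hadj'), rfl⟩
      · -- fewer points
        intro B hB hBr
        have h1 : 3 * B.card ≤ 2 * (A.filter fun v => v ∈ Set.range ι).card := by
          refine ha (ι v) hv' B (fun b hb => ?_) (fun b hb => ?_)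
          · rw [Finset.mem_filter]
            obtain ⟨x, _, hx⟩ := (hrange b).1 (hBr b hb)
            exact ⟨hB hb, ⟨x, hx⟩⟩
          · obtain ⟨x, hx1, hx⟩ := (hrange b).1 (hBr b hb)
            rw [← hx]
            exact hreach _ _ hx1
        have h2 := hA (A.filter fun v => v ∈ Set.range ι) (Finset.filter_subset _ _)
          (fun b hb => (Finset.mem_filter.1 hb).2)
        have h3 : 2 ^ k * (3 * B.card) ≤ 2 ^ k * (2 * (A.filter fun v => v ∈ Set.range ι).card) :=
          Nat.mul_le_mul_left _ h1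
        have h4 : (2 : ℕ) ^ (k + 1) = 2 ^ k * 2 := pow_succ _ _
        have h5 : (3 : ℕ) ^ (k + 1) = 3 ^ k * 3 := pow_succ _ _
        rw [h4, h5] at h2
        nlinarith
      · -- the boundary
        rintro ⟨x, hx⟩ b hb hxb
        show φ x ≤ ℓ s(ι x, b)
        by_cases hbr : b ∈ Set.range ι
        · obtain ⟨y, rfl⟩ := hbr
          have hxy : G₁.Adj x y := (hadj x y).2 hxb
          have hyU : y ∈ ι ⁻¹' U := by
            by_contra hn
            exact hb ((hrange _).2 ⟨y, ReachOff.trans hx (ReachOff.adj (ReachOff.right hx) hn hxy),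
              rfl⟩)
          have h1 := hφl x y hxy
          rw [hφz y hyU, sub_zero] at h1
          exact (le_abs_self _).trans h1
        · exact (hφH x).trans (hHb x b hbr hxb)

end rec

end Vale.Agent.P235.H718
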