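import Vale.Agent.P235.R2.H718.S3
import Vale.Agent.P235.R2.H582.Wide
import Vale.Agent.P235.R2.H341.X8

/-!
# Few faces, square root of the logarithm: assembly (helper718)
-/

set_option autoImplicit false

namespace Vale.Agent.P235.H718

open Finset Vale.Agent.P235 Vale.Agent.P235.Red Vale.Agent.P235.H341W
open Vale.Agent.P235.R2.H582.Wd
open Vale.Agent.P235.R2.H168 (hlen hlen_mk)

theorem orb_descE {V : Type} {E : V → V → Prop} {h : V → ℝ} {p : V → V} {s : V}
    (hp : ∀ v, v ≠ s → E v (p v) ∧ h (p v) < h v) {a b : V} (h1 : Orb p s a b) :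
    DescE E h a b := by
  induction h1 with
  | refl => exact Relation.ReflTransGen.refl
  | @tail b c _ hbc ih =>
    obtain ⟨hb, rfl⟩ := hbc
    exact ih.tail (hp b hb)

theorem LS_eq {V : Type} [DecidableEq V] (p : V → V) (s : V) (A : List V) :
    (⋃ a ∈ A.toFinset, chain p s a) = LS p s A := by
  ext v
  simp only [Set.mem_iUnion, List.mem_toFinset]
  constructor
  · rintro ⟨a, ha, hv⟩
    exact ⟨a, ha, hv⟩
  · rintro ⟨a, ha, hv⟩
    exact ⟨a, ha, hv⟩

theorem sqrt_log_four (m : ℕ) :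
    √(Real.log (((4 * m : ℕ) : ℝ) + 2)) ≤ 2 + √(Real.log (m + 2)) := by
  have hm : (0 : ℝ) ≤ m := Nat.cast_nonneg _
  have h2 : Real.log (((4 * m : ℕ) : ℝ) + 2) ≤ 2 + Real.log (m + 2) := by
    have h3 : Real.log (4 * ((m : ℝ) + 2)) = Real.log 4 + Real.log (m + 2) :=
      Real.log_mul (by norm_num) (by positivity)
    have h4 : Real.log 4 ≤ 2 := by
      have h5 : Real.log 4 = 2 * Real.log 2 := by
        rw [show (4 : ℝ) = 2 ^ 2 by norm_num, Real.log_pow]
        norm_num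
      have h6 := Real.log_two_lt_d9
      rw [h5]
      linarith
    have h5 : Real.log (((4 * m : ℕ) : ℝ) + 2) ≤ Real.log (4 * ((m : ℝ) + 2)) := by
      refine Real.log_le_log (by positivity) ?_
      push_cast
      linarith
    linarith
  have h3 : 0 ≤ Real.log ((m : ℝ) + 2) := Real.log_nonneg (by linarith)
  have h4 := Real.sqrt_nonneg (Real.log ((m : ℝ) + 2))
  rw [Real.sqrt_le_left (by positivity)]
  have h5 := Real.sq_sqrt h3
  nlinarith

/-- tight form -/
theorem sqrt_tight {C : ℝ} (hC : 1 ≤ C) (hMS : MStarLL C) (hR : RowMQp) (hSep : RowSep)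
    (V : Type) [Finite V]
    (G : SimpleGraph V) (σ : Equiv.Perm G.Dart) (ℓ : Sym2 V → ℝ) (E : V → V → Prop) (h : V → ℝ)
    (s : V) (M : Finset G.Dart) (hℓ : ∀ e ∈ G.edgeSet, 0 < ℓ e)
    (hlip : ∀ u v, G.Adj u v → |h u - h v| ≤ ℓ s(u, v))
    (hE : ∀ u v, E u v → ℓ s(u, v) ≤ |h u - h v|)
    (hMQ : MQ G σ E h s (M : Set G.Dart)) (hM : M.Nonempty) :
    EmbedsL1 (pathDist G ℓ)
      (300000000000000 * C * ((ll (Nat.card V) : ℝ) + 1 + √(Real.log (M.card + 2)))) := by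
  classical
  have hc := hMQ.conn
  have hE' : ∀ u v, E u v → G.Adj u v ∧ ℓ s(u, v) ≤ |h u - h v| := fun u v he =>
    ⟨hMQ.adj u v he, hE u v he⟩
  have hpar : ∀ v, ∃ u, v ≠ s → E v u ∧ h u < h v := by
    intro v
    by_cases hv : v = s
    · exact ⟨v, fun k => absurd hv k⟩
    · obtain ⟨u, hu⟩ := hMQ.low v hv
      exact ⟨u, fun _ => hu⟩
  choose p hp using hpar
  obtain ⟨A, hA, hleaf⟩ := hR M.card V G σ E h s p M hMQ hM le_rfl hp
  have hL0 : (0 : ℝ) ≤ ll (Nat.card V) := Nat.cast_nonneg _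
  have hC' : (1 : ℝ) ≤ 219073 * 96 * C * 1 * ((ll (Nat.card V) : ℝ) + 3) := by nlinarith
  have h1 := sqrt_rounds (p := p) (s := s) (u := h) hc hℓ (lip_pdE hc hlip)
    (fun v hv => hMQ.adj _ _ (hp v hv).1)
    (hSep V G σ h s p hc hMQ.plane fun v hv => ⟨hMQ.adj _ _ (hp v hv).1, (hp v hv).2⟩)
    (fun c a ha b hb => descE_le_abs hc hℓ hE' (by
      rcases Orb.total ha hb with k | k
      · exact Or.inl (orb_descE hp k)
      · exact Or.inr (orb_descE hp k))) A.toFinset hC' (by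
    rw [LS_eq]
    intro v hv
    obtain ⟨W, fW, G', ι, σ', s', m, hinj, hadj, hfull, hsub, -, -, hMQ'⟩ := hleaf v hv
    have hmono : ∀ a : compSet G (LS p s A) v, a.1 ∈ Set.range ι := fun a => hsub a.2
    choose κ hκ using hmono
    have hpc := piece_ofE (K := compSet G (LS p s A) v) hc hℓ hadj hfull hMQ'.conn hκ
    refine ⟨W, G', fun e => ℓ (e.map ι), κ, hpc, ?_⟩
    refine leafW_embeds hC hMS _ W G' _ hMQ'.conn hpc.pos
      ⟨h ∘ ι, σ', s', m, hMQ'.plane, ?_, ?_, ?_, ?_⟩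
    · intro a b hab
      exact hlip _ _ (hadj a b hab)
    · intro v hv
      obtain ⟨w, hw, hlt⟩ := hMQ'.low v hv
      refine ⟨w, hMQ'.adj _ _ hw, ?_⟩
      have h1 := hE _ _ hw
      have h5 : h (ι w) < h (ι v) := hlt
      rw [abs_of_pos (sub_pos.2 h5)] at h1
      exact h1
    · intro v hv
      rcases hMQ'.high v with ⟨w, hw, hlt⟩ | ⟨m', hm', h1⟩
      · refine ⟨w, hMQ'.adj _ _ hw, ?_⟩
        have h1 := hE _ _ hw
        have h5 : h (ι v) < h (ι w) := hlt
        rw [abs_sub_comm, abs_of_pos (sub_pos.2 h5)] at h1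
        exact h1
      · rw [Set.mem_singleton_iff.1 hm'] at h1
        exact absurd h1 hv
    · exact Nat.card_le_card_of_injective ι hinj)
  refine R2.H582.embeds_mono (pd_nonneg hℓ) ?_ h1
  have h2 : √(Real.log ((A.toFinset.card : ℝ) + 2)) ≤ 2 + √(Real.log (M.card + 2)) := by
    refine le_trans (Real.sqrt_le_sqrt (Real.log_le_log (by positivity) ?_))
      (sqrt_log_four M.card)
    have h3 : A.toFinset.card ≤ 4 * M.card := (List.toFinset_card_le A).trans (by omega)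
    have h4 : (A.toFinset.card : ℝ) ≤ ((4 * M.card : ℕ) : ℝ) := by exact_mod_cast h3
    linarith
  have h3 := Real.sqrt_nonneg (Real.log ((M.card : ℝ) + 2))
  have h4 : √(Real.log ((M.card : ℝ) + 2)) ≤ C * √(Real.log ((M.card : ℝ) + 2)) :=
    le_mul_of_one_le_left h3 hC
  have h5 : (ll (Nat.card V) : ℝ) ≤ C * ll (Nat.card V) := le_mul_of_one_le_left hL0 hC
  nlinarith

/-- **few faces, with slack edges**: `h` is nonexpansive; every vertex but `s` has an edge of slope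
at least `1/D` down; every vertex has an edge of slope at least `1/D` up or is on one of the faces
of `M`; every edge has slope at least `1/D` or is a side of one of the faces of `M`. -/
theorem plane_faces_sqrt {C : ℝ} (hC : 1 ≤ C) (hMS : MStarLL C) (hR : RowMQp) (hSep : RowSep)
    (V : Type)
    [Finite V] (G : SimpleGraph V) (σ : Equiv.Perm G.Dart) (ℓ : Sym2 V → ℝ) (h : V → ℝ) (s : V)
    (D : ℝ) (hD : 1 ≤ D) (M : Finset G.Dart) (hM : M.Nonempty) (hc : G.Connected)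
    (hP : PlaneMap G σ) (hℓ : ∀ e ∈ G.edgeSet, 0 < ℓ e)
    (h1 : ∀ u v, G.Adj u v → |h u - h v| ≤ ℓ s(u, v))
    (hlow : ∀ v, v ≠ s → ∃ u, G.Adj v u ∧ ℓ s(v, u) ≤ D * (h v - h u))
    (hhigh : ∀ v, (∃ u, G.Adj v u ∧ ℓ s(v, u) ≤ D * (h u - h v)) ∨ ∃ m ∈ M, v ∈ onFace σ m)
    (hslack : ∀ d : G.Dart, ℓ s(d.fst, d.snd) ≤ D * |h d.fst - h d.snd| ∨
      ∃ m ∈ M, (faceNext σ).SameCycle m d ∨ (faceNext σ).SameCycle m d.symm) :
    EmbedsL1 (pathDist G ℓ)
      (300000000000000 * C * D * ((ll (Nat.card V) : ℝ) + 1 + √(Real.log (M.card + 2)))) := by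
  classical
  have hD0 : (0 : ℝ) < D := by linarith
  -- the tight lengths
  let ℓ₁ : Sym2 V → ℝ := fun e => if ℓ e ≤ D * hlen h e then hlen h e else ℓ e
  have hs1 : ∀ u v, ℓ s(u, v) ≤ D * |h u - h v| → ℓ₁ s(u, v) = |h u - h v| := by
    intro u v huv
    show (if ℓ s(u, v) ≤ D * hlen h s(u, v) then hlen h s(u, v) else ℓ s(u, v)) = _
    rw [hlen_mk, if_pos huv]
  have hs2 : ∀ u v, ¬ ℓ s(u, v) ≤ D * |h u - h v| → ℓ₁ s(u, v) = ℓ s(u, v) := by
    intro u v huv
    show (if ℓ s(u, v) ≤ D * hlen h s(u, v) then hlen h s(u, v) else ℓ s(u, v)) = _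
    rw [hlen_mk, if_neg huv]
  have hpos : ∀ u v, G.Adj u v → 0 < ℓ s(u, v) := fun u v ha => hℓ _ ((G.mem_edgeSet).2 ha)
  have hne : ∀ u v, G.Adj u v → ℓ s(u, v) ≤ D * |h u - h v| → 0 < |h u - h v| := by
    intro u v ha huv
    have h3 := hpos u v ha
    by_contra hh
    have h4 : |h u - h v| = 0 := le_antisymm (not_lt.1 hh) (abs_nonneg _)
    rw [h4, mul_zero] at huv
    linarith
  have hℓ₁ : ∀ e ∈ G.edgeSet, 0 < ℓ₁ e := fun e he => by
    induction e with
    | _ u v =>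
      by_cases huv : ℓ s(u, v) ≤ D * |h u - h v|
      · rw [hs1 u v huv]
        exact hne u v he huv
      · rw [hs2 u v huv]
        exact hℓ _ he
  have hle1 : ∀ u v, G.Adj u v → ℓ₁ s(u, v) ≤ ℓ s(u, v) := by
    intro u v ha
    by_cases huv : ℓ s(u, v) ≤ D * |h u - h v|
    · rw [hs1 u v huv]
      exact h1 u v ha
    · rw [hs2 u v huv]
  have hle2 : ∀ u v, G.Adj u v → ℓ s(u, v) ≤ D * ℓ₁ s(u, v) := by
    intro u v ha
    by_cases huv : ℓ s(u, v) ≤ D * |h u - h v|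
    · rw [hs1 u v huv]
      exact huv
    · rw [hs2 u v huv]
      exact le_mul_of_one_le_left (hpos u v ha).le hD
  have hlip : ∀ u v, G.Adj u v → |h u - h v| ≤ ℓ₁ s(u, v) := by
    intro u v ha
    by_cases huv : ℓ s(u, v) ≤ D * |h u - h v|
    · rw [hs1 u v huv]
    · rw [hs2 u v huv]
      exact h1 u v ha
  let E : V → V → Prop := fun u v => G.Adj u v ∧ ℓ s(u, v) ≤ D * |h u - h v|
  have hup : ∀ u v, G.Adj v u → ℓ s(v, u) ≤ D * (h v - h u) → E v u ∧ h u < h v := by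
    intro u v ha huv
    have h3 := hpos v u ha
    have h4 : 0 < h v - h u := by
      by_contra hh
      have h5 : D * (h v - h u) ≤ 0 := mul_nonpos_of_nonneg_of_nonpos hD0.le (not_lt.1 hh)
      linarith
    exact ⟨⟨ha, by rw [abs_of_pos h4]; exact huv⟩, sub_pos.1 h4⟩
  have hdn : ∀ u v, G.Adj v u → ℓ s(v, u) ≤ D * (h u - h v) → E v u ∧ h v < h u := by
    intro u v ha huv
    have h3 := hpos v u ha
    have h4 : 0 < h u - h v := by
      by_contra hh
      have h5 : D * (h u - h v) ≤ 0 := mul_nonpos_of_nonneg_of_nonpos hD0.le (not_lt.1 hh)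
      linarith
    exact ⟨⟨ha, by rw [abs_sub_comm, abs_of_pos h4]; exact huv⟩, sub_pos.1 h4⟩
  have hMQ : MQ G σ E h s (M : Set G.Dart) := by
    refine ⟨hc, hP, fun u v he => he.1, fun u v he => ⟨he.1.symm, ?_⟩, ?_, ?_, ?_, ?_⟩
    · rw [Sym2.eq_swap, abs_sub_comm]
      exact he.2
    · intro u v he hh
      have h3 := hne u v he.1 he.2
      rw [hh, sub_self, abs_zero] at h3
      exact lt_irrefl _ h3
    · intro v hv
      obtain ⟨u, hu, h3⟩ := hlow v hv
      exact ⟨u, hup u v hu h3⟩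
    · intro v
      rcases hhigh v with ⟨u, hu, h3⟩ | h3
      · exact Or.inl ⟨u, hdn u v hu h3⟩
      · exact Or.inr h3
    · intro d
      rcases hslack d with h3 | h3
      · exact Or.inl ⟨d.adj, h3⟩
      · exact Or.inr h3
  have hmain := sqrt_tight hC hMS hR hSep V G σ ℓ₁ E h s M hℓ₁ hlip
    (fun u v he => (hs1 u v he.2).le) hMQ hM
  have e1 : ∀ x y, pathDist G ℓ x y ≤ D * pathDist G ℓ₁ x y :=
    R2.H673.pathDist_le_mul hD0.le (fun u v ha => (hpos u v ha).le) hle2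
  have e2 : ∀ x y, pathDist G ℓ₁ x y ≤ 1 * pathDist G ℓ x y :=
    R2.H673.pathDist_le_mul zero_le_one (fun u v ha => (hℓ₁ _ ((G.mem_edgeSet).2 ha)).le)
      (fun u v ha => by rw [one_mul]; exact hle1 u v ha)
  refine R2.H673.embedsL1_scale hD0.le hmain e1 (fun x y => ?_)
  have hlog : 0 ≤ √(Real.log ((M.card : ℝ) + 2)) := Real.sqrt_nonneg _
  have h3 : (0 : ℝ) ≤ 300000000000000 * C * D *
      ((ll (Nat.card V) : ℝ) + 1 + √(Real.log (M.card + 2))) := by positivity
  have h4 := mul_le_mul_of_nonneg_left (e2 x y) h3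
  rw [one_mul] at h4
  calc D * (300000000000000 * C * ((ll (Nat.card V) : ℝ) + 1 + √(Real.log (M.card + 2))) *
        pathDist G ℓ₁ x y) =
      300000000000000 * C * D * ((ll (Nat.card V) : ℝ) + 1 + √(Real.log (M.card + 2))) *
        pathDist G ℓ₁ x y := by ring
    _ ≤ _ := h4

/-- **few faces, distance from a root**: `(G, ℓ)` is any plane graph with lengths, `r` any vertex,
and the faces of `M` contain all local maxima of the distance from `r`, on vertices and inside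
edges. -/
theorem plane_root_sqrt {C : ℝ} (hC : 1 ≤ C) (hMS : MStarLL C) (hR : RowMQp) (hSep : RowSep)
    (V : Type)
    [Finite V] (G : SimpleGraph V) (σ : Equiv.Perm G.Dart) (ℓ : Sym2 V → ℝ) (r : V)
    (M : Finset G.Dart) (hM : M.Nonempty) (hc : G.Connected)
    (hP : PlaneMap G σ) (hℓ : ∀ e ∈ G.edgeSet, 0 < ℓ e)
    (hhigh : ∀ v, (∃ u, G.Adj v u ∧ pathDist G ℓ r u = pathDist G ℓ r v + ℓ s(v, u)) ∨
      ∃ m ∈ M, v ∈ onFace σ m)
    (hslack : ∀ d : G.Dart, pathDist G ℓ r d.snd = pathDist G ℓ r d.fst + ℓ s(d.fst, d.snd) ∨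
      pathDist G ℓ r d.fst = pathDist G ℓ r d.snd + ℓ s(d.fst, d.snd) ∨
      ∃ m ∈ M, (faceNext σ).SameCycle m d ∨ (faceNext σ).SameCycle m d.symm) :
    EmbedsL1 (pathDist G ℓ)
      (300000000000000 * C * ((ll (Nat.card V) : ℝ) + 1 + √(Real.log (M.card + 2)))) := by
  have tri := pd_tri hc hℓ
  have hpos : ∀ u v, G.Adj u v → 0 < ℓ s(u, v) := fun u v ha => hℓ _ ((G.mem_edgeSet).2 ha)
  have h := plane_faces_sqrt hC hMS hR hSep V G σ ℓ (pathDist G ℓ r) r 1 le_rfl M hM hc hP hℓ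
    (fun u v ha => by
      have h1 := pd_adj hℓ ha
      have h2 := tri r u v
      have h3 := tri r v u
      rw [pd_comm hc hℓ v u] at h3
      exact abs_le.2 ⟨by linarith, by linarith⟩)
    (fun v hv => by
      obtain ⟨u, hu, h1⟩ := _root_.Vale.Agent.P235.Tight.exists_first hc hℓ hv
      refine ⟨u, hu, ?_⟩
      rw [pd_comm hc hℓ r v, pd_comm hc hℓ r u, one_mul]
      linarith)
    (fun v => by
      rcases hhigh v with ⟨u, hu, h1⟩ | h1
      · exact Or.inl ⟨u, hu, by rw [one_mul]; linarith⟩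
      · exact Or.inr h1)
    (fun d => by
      rcases hslack d with h1 | h1 | h1
      · refine Or.inl ?_
        rw [one_mul, h1, abs_sub_comm, add_sub_cancel_left]
        exact le_abs_self _
      · refine Or.inl ?_
        rw [one_mul, h1, add_sub_cancel_left]
        exact le_abs_self _
      · exact Or.inr h1)
  rwa [mul_one] at h

end Vale.Agent.P235.H718
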