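import Vale.Agent.P235.R2.H718.S3

/-!
# The wrapper (helper718)
-/

namespace Vale.Agent.P235.H718

open Finset Vale.Agent.P235

/-- from the pointed form to the embedding -/
theorem embeds_of_pointed2D {V : Type} [Finite V] {G : SimpleGraph V} {ℓ : Sym2 V → ℝ} {k K : ℝ}
    (hk : 0 ≤ k) (hK : 0 < K) (hc : G.Connected) (hℓ : ∀ e ∈ G.edgeSet, 0 < ℓ e)
    (h : ∀ H : V → ℝ, (∀ v, 0 < H v) → (∀ u v, G.Adj u v → |H u - H v| ≤ ℓ s(u, v)) →
      Pointed2D G ℓ H (pathDist G ℓ) k K) :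
    EmbedsL1 (pathDist G ℓ) (48000 * (K + √k)) := by
  have hd := pathDist_isMet hc hℓ
  obtain ⟨Ω, m, μ, f, hf⟩ := pointed2D_embeds hk hK hc hℓ h
  refine ⟨Ω, m, μ, f, fun x y => ⟨(hf x y).1, (hf x y).2.trans
    (mul_le_mul_of_nonneg_right ?_ (hd.nonneg x y))⟩⟩
  linarith

end Vale.Agent.P235.H718
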