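import Vale.Agent.P235.R2.H718.S4
import Vale.Agent.P235.R2.H907.Sub
import Vale.Agent.P235.R2.H802.Sep2

/-!
# Few faces, square root of the logarithm: only the words theorem is a hypothesis (helper718)
-/

set_option autoImplicit false

namespace Vale.Agent.P235.H718

open Vale.Agent.P235 Vale.Agent.P235.Red Vale.Agent.P235.H341W

/-- **few faces, with slack edges, square root form**: `h` is nonexpansive; every vertex but `s` has
an edge of slope at least `1/D` down; every vertex has an edge of slope at least `1/D` up or is on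
one of the faces of `M`; every edge has slope at least `1/D` or is a side of one of the faces of
`M`. -/
theorem plane_faces_sqrt_all {C : ℝ} (hC : 1 ≤ C) (hMS : MStarLL C) (V : Type)
    [Finite V] (G : SimpleGraph V) (σ : Equiv.Perm G.Dart) (ℓ : Sym2 V → ℝ) (h : V → ℝ) (s : V)
    (D : ℝ) (hD : 1 ≤ D) (M : Finset G.Dart) (hM : M.Nonempty) (hc : G.Connected)
    (hP : PlaneMap G σ) (hℓ : ∀ e ∈ G.edgeSet, 0 < ℓ e)
    (h1 : ∀ u v, G.Adj u v → |h u - h v| ≤ ℓ s(u, v))
    (hlow : ∀ v, v ≠ s → ∃ u, G.Adj v u ∧ ℓ s(v, u) ≤ D * (h v - h u))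
    (hhigh : ∀ v, (∃ u, G.Adj v u ∧ ℓ s(v, u) ≤ D * (h u - h v)) ∨ ∃ m ∈ M, v ∈ onFace σ m)
    (hslack : ∀ d : G.Dart, ℓ s(d.fst, d.snd) ≤ D * |h d.fst - h d.snd| ∨
      ∃ m ∈ M, (faceNext σ).SameCycle m d ∨ (faceNext σ).SameCycle m d.symm) :
    EmbedsL1 (pathDist G ℓ)
      (300000000000000 * C * D * ((ll (Nat.card V) : ℝ) + 1 + √(Real.log (M.card + 2)))) :=
  plane_faces_sqrt hC hMS (rowMQp_of R2.H907.rowSub) SqR.rowSep V G σ ℓ h s D hD M hM hc hP hℓ h1
    hlow hhigh hslack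

end Vale.Agent.P235.H718
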