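import Vale.Agent.P235.R2.H718.UlgSpec

/-!
# Unions of `m` sets: Voronoi cells (helper718)
-/

set_option autoImplicit false

namespace Vale.Agent.P235.Ulg

open Finset Vale.Agent.P235 Vale.Agent.P235.H536

/-- (B) -/
theorem rowB : RowB := by
  intro V _ G ℓ hc hℓ ι _ _ K hK F D hF hFl hD0 hD S
  classical
  have := Fintype.ofFinite V
  have hne : Nonempty V := hc.nonempty
  obtain ⟨R, hR0, hR⟩ : ∃ R : ℝ, 0 < R ∧ ∀ i x y, F i x y ≤ R := by
    refine ⟨1 + ∑ i, ∑ x, ∑ y, F i x y, ?_, ?_⟩
    · have : 0 ≤ ∑ i, ∑ x, ∑ y, F i x y := Finset.sum_nonneg fun i _ =>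
        Finset.sum_nonneg fun x _ => Finset.sum_nonneg fun y _ => (hF i).nonneg x y
      linarith
    · intro i x y
      have e1 : F i x y ≤ ∑ y, F i x y := Finset.single_le_sum (f := fun y => F i x y)
        (fun y _ => (hF i).nonneg x y) (Finset.mem_univ y)
      have e2 : ∑ y, F i x y ≤ ∑ x, ∑ y, F i x y :=
        Finset.single_le_sum (f := fun x => ∑ y, F i x y)
        (fun x _ => Finset.sum_nonneg fun y _ => (hF i).nonneg x y) (Finset.mem_univ x)
      have e3 : ∑ x, ∑ y, F i x y ≤ ∑ i, ∑ x, ∑ y, F i x y :=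
        Finset.single_le_sum (f := fun i => ∑ x, ∑ y, F i x y)
        (fun i _ => Finset.sum_nonneg fun x _ => Finset.sum_nonneg fun y _ => (hF i).nonneg x y)
        (Finset.mem_univ i)
      linarith
  let m : ι → V → ℝ := fun i v =>
    if h : (S.erase i).Nonempty then (S.erase i).inf' h (fun k => D k v) else D i v + 2 * R
  have hm1 : ∀ i v, ∀ k ∈ S, k ≠ i → m i v ≤ D k v := by
    intro i v k hk hki
    have hmem : k ∈ S.erase i := Finset.mem_erase.2 ⟨hki, hk⟩
    have h : (S.erase i).Nonempty := ⟨k, hmem⟩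
    have e : m i v = (S.erase i).inf' h (fun k => D k v) := dif_pos h
    rw [e]
    exact Finset.inf'_le (fun k => D k v) hmem
  have hm2 : ∀ i v t, (∀ k ∈ S, k ≠ i → 2 * t + D i v ≤ D k v) →
      2 * t + D i v ≤ m i v ∨ m i v = D i v + 2 * R := by
    intro i v t ht
    by_cases h : (S.erase i).Nonempty
    · left
      have e : m i v = (S.erase i).inf' h (fun k => D k v) := dif_pos h
      rw [e]
      refine Finset.le_inf' _ _ fun k hk => ?_
      exact ht k (Finset.mem_of_mem_erase hk) (Finset.ne_of_mem_erase hk)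
    · right
      exact dif_neg h
  have hm3 : ∀ i u v, G.Adj u v → m i u - D i u ≤ m i v - D i v + 2 * ℓ s(u, v) := by
    intro i u v huv
    have hl := hℓ s(u, v) huv
    by_cases h : (S.erase i).Nonempty
    · have e1 : m i u = (S.erase i).inf' h (fun k => D k u) := dif_pos h
      have e2 : m i v = (S.erase i).inf' h (fun k => D k v) := dif_pos h
      have h1 : m i u - ℓ s(u, v) ≤ m i v := by
        rw [e2]
        refine Finset.le_inf' _ _ fun k hk => ?_
        have h2 : m i u ≤ D k u := by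
          rw [e1]
          exact Finset.inf'_le (fun k => D k u) hk
        have h3 := hD k u v huv
        rw [abs_le] at h3
        linarith
      have h4 := hD i u v huv
      rw [abs_le] at h4
      linarith
    · have e1 : m i u = D i u + 2 * R := dif_neg h
      have e2 : m i v = D i v + 2 * R := dif_neg h
      rw [e1, e2]
      linarith
  let φ : ι → V → ℝ := fun i v => max 0 ((m i v - D i v) / 2)
  have hφ0 : ∀ i v, 0 ≤ φ i v := fun i v => le_max_left _ _
  have hφ1 : ∀ i u v, G.Adj u v → φ i u ≤ φ i v + ℓ s(u, v) := by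
    intro i u v huv
    have hl := hℓ s(u, v) huv
    have h1 := hm3 i u v huv
    have h2 : (m i v - D i v) / 2 ≤ φ i v := le_max_right _ _
    refine max_le (by linarith [hφ0 i v]) (by linarith)
  have hφl : ∀ i u v, G.Adj u v → |φ i u - φ i v| ≤ ℓ s(u, v) := by
    intro i u v huv
    have h1 := hφ1 i u v huv
    have h2 := hφ1 i v u huv.symm
    rw [Sym2.eq_swap] at h2
    rw [abs_le]
    constructor <;> linarith
  have hφlt : ∀ i v, 0 < φ i v → D i v < m i v := by
    intro i v h
    rcases lt_max_iff.1 h with h | h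
    · exact absurd h (lt_irrefl _)
    · linarith
  have huniq : ∀ v, ∀ i ∈ S, ∀ k ∈ S, 0 < φ i v → 0 < φ k v → i = k := by
    intro v i hi k hk h1 h2
    by_contra hne
    have h3 := hφlt i v h1
    have h4 := hφlt k v h2
    have h5 := hm1 i v k hk (Ne.symm hne)
    have h6 := hm1 k v i hi hne
    linarith
  -- the local maps
  have hloc := fun i : ι => fanL1 (V := {v : V // 0 < φ i v}) (F := fun a b => F i a.1 b.1)
    ((hF i).comap Subtype.val) (H := fun a => φ i a.1) (fun a => a.2)
  choose σ hσ hσ1 hσ2 hσ3 hσ4 using hloc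
  let e : ∀ i : ι, V → Option {v : V // 0 < φ i v} := fun i v =>
    if h : 0 < φ i v then some ⟨v, h⟩ else none
  have he1 : ∀ i v (h : 0 < φ i v), e i v = some ⟨v, h⟩ := fun i v h => dif_pos h
  have he2 : ∀ i v, ¬ 0 < φ i v → e i v = none := fun i v h => dif_neg h
  have hΦi : ∀ i, IsL1 fun u v => σ i (e i u) (e i v) := fun i => (hσ i).comap (e i)
  have hout : ∀ i u v, G.Adj u v → 0 < φ i u → ¬ 0 < φ i v →
      σ i (e i u) (e i v) ≤ K * ℓ s(u, v) := by
    intro i u v huv hu hv
    have hl := hℓ s(u, v) huv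
    rw [he1 i u hu, he2 i v hv]
    have h1 : σ i (some ⟨u, hu⟩) none ≤ φ i u := hσ2 i ⟨u, hu⟩
    have h2 := hφ1 i u v huv
    have h3 : φ i v = 0 := le_antisymm (not_lt.1 hv) (hφ0 i v)
    nlinarith
  have hedge : ∀ i u v, G.Adj u v → σ i (e i u) (e i v) ≤
      (if 0 < φ i u then K * ℓ s(u, v) else 0) + (if 0 < φ i v then K * ℓ s(u, v) else 0) := by
    intro i u v huv
    have hl := hℓ s(u, v) huv
    have hKl : 0 ≤ K * ℓ s(u, v) := by positivity
    by_cases hu : 0 < φ i u
    · by_cases hv : 0 < φ i v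
      · rw [if_pos hu, if_pos hv, he1 i u hu, he1 i v hv]
        have h1 : σ i (some ⟨u, hu⟩) (some ⟨v, hv⟩) ≤
          (12 * F i u v + 14 * |φ i u - φ i v|) / 250 := hσ1 i ⟨u, hu⟩ ⟨v, hv⟩
        have h2 := hFl i u v huv
        have h3 := hφl i u v huv
        nlinarith
      · rw [if_pos hu, if_neg hv, add_zero]
        exact hout i u v huv hu hv
    · by_cases hv : 0 < φ i v
      · rw [if_neg hu, if_pos hv, zero_add]
        have h1 := hout i v u huv.symm hv hu
        rw [(hσ i).symm, Sym2.eq_swap]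
        exact h1
      · rw [if_neg hu, if_neg hv, he2 i u hu, he2 i v hv, (hσ i).self]
        norm_num
  have hcount : ∀ v (c : ℝ), 0 ≤ c → ∑ i ∈ S, (if 0 < φ i v then c else 0) ≤ c := by
    intro v c hc0
    by_cases h : ∃ i ∈ S, 0 < φ i v
    · obtain ⟨i, hi, hφi⟩ := h
      rw [Finset.sum_eq_single_of_mem i hi]
      · rw [if_pos hφi]
      · intro k hk hki
        rw [if_neg]
        intro h2
        exact hki (huniq v k hk i hi h2 hφi)
    · push Not at h
      refine (Finset.sum_nonpos fun i hi => ?_).trans hc0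
      rw [if_neg (not_lt.2 (h i hi))]
  refine ⟨fun u v => ∑ i ∈ S, σ i (e i u) (e i v),
    IsL1.sum S (fun i u v => σ i (e i u) (e i v)) fun i _ => hΦi i, ?_, ?_⟩
  · intro u v huv
    have hl := hℓ s(u, v) huv
    have hKl : 0 ≤ K * ℓ s(u, v) := by positivity
    show ∑ i ∈ S, σ i (e i u) (e i v) ≤ _
    refine (Finset.sum_le_sum fun i _ => hedge i u v huv).trans ?_
    rw [Finset.sum_add_distrib]
    have h1 := hcount u _ hKl
    have h2 := hcount v _ hKl
    linarith
  · intro x y t ht i hi hk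
    show _ ≤ 2000 * ∑ i ∈ S, σ i (e i x) (e i y)
    have h1 : σ i (e i x) (e i y) ≤ ∑ i ∈ S, σ i (e i x) (e i y) :=
      Finset.single_le_sum (f := fun i => σ i (e i x) (e i y))
        (fun k _ => (hΦi k).nonneg x y) hi
    have hph : ∀ z, (∀ k ∈ S, k ≠ i → 2 * t + D i z ≤ D k z) → t ≤ φ i z ∨ φ i z = R := by
      intro z hz
      rcases hm2 i z t hz with h | h
      · left
        exact le_trans (by linarith) (le_max_right _ _)
      · right
        show max 0 ((m i z - D i z) / 2) = R
        rw [h, max_eq_right (by linarith)]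
        ring
    have hx := hph x fun k hk1 hk2 => (hk k hk1 hk2).1
    have hy := hph y fun k hk1 hk2 => (hk k hk1 hk2).2
    have hx0 : 0 < φ i x := by rcases hx with h | h <;> linarith
    have hy0 : 0 < φ i y := by rcases hy with h | h <;> linarith
    have h2 : min (F i x y) (φ i x + φ i y) / 2000 ≤ σ i (some ⟨x, hx0⟩) (some ⟨y, hy0⟩) :=
      hσ4 i ⟨x, hx0⟩ ⟨y, hy0⟩
    rw [he1 i x hx0, he1 i y hy0] at h1
    have h3 : min (F i x y) t ≤ min (F i x y) (φ i x + φ i y) := by
      refine le_min (min_le_left _ _) ?_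
      rcases hx with h | h
      · exact (min_le_right _ _).trans (by linarith)
      · exact (min_le_left _ _).trans (by linarith [hR i x y])
    linarith

end Vale.Agent.P235.Ulg
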