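import Vale.Agent.P235.R2.H718.LanesK
import Vale.Agent.P235.R2.H718.UlgB
import Vale.Agent.P235.R2.H90.UlgA
import Vale.Agent.P235.R2.H90.UlgE
import Vale.Agent.P235.R2.H907.UlgC
import Vale.Agent.P235.R2.H934.UlgD

/-!
# Unions of `m` sets in graphs without a `K_r` minor cost `(r + 2)^3 log (m + 2)` (helper718)
-/

set_option autoImplicit false

namespace Vale.Agent.P235.Kr

open Vale.Agent.P235

/-- **Unions.** If the connected graph `G` has no `K_r` minor and the metric on each of `m` sets of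
vertices has distortion at most `B ≥ 1`, then the metric on the union has distortion at most
`12 * 10^9 (r + 2)^3 B log (m + 2)`. -/
theorem unionLog {r : ℕ} {V : Type} [Finite V] {G : SimpleGraph V} {ℓ : Sym2 V → ℝ}
    (hc : G.Connected) (hK : NoK r G) (hℓ : ∀ e ∈ G.edgeSet, 0 < ℓ e) {m : ℕ}
    {X : Fin m → Set V} {B : ℝ} (hB : 1 ≤ B)
    (hE : ∀ i, EmbedsL1 (fun u v : X i => pathDist G ℓ u v) B) :
    EmbedsL1 (fun u v : ↥(⋃ i, X i) => pathDist G ℓ u v)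
      (12 * 10 ^ 9 * ((r : ℝ) + 2) ^ 3 * B * Real.log ((m : ℝ) + 2)) := by
  have hr : (1 : ℝ) ≤ ((r : ℝ) + 2) ^ 3 := one_le_pow₀ (by
    have : (0 : ℝ) ≤ r := Nat.cast_nonneg r
    linarith)
  have hR : Uni.Retr G ℓ (200 * ((r : ℝ) + 2) ^ 3) := retr V G ℓ r hc hK hℓ
  have h := Ulg.rowE Ulg.rowA Ulg.rowB Ulg.rowC Ulg.rowD V G ℓ hc hℓ (200 * ((r : ℝ) + 2) ^ 3)
    (by linarith) hR (1000 * ((r : ℝ) + 2) ^ 3) (by linarith) (varK_all hc hK hℓ) m X B hB hE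
  have e : 10 ^ 7 * (200 * ((r : ℝ) + 2) ^ 3 + 1000 * ((r : ℝ) + 2) ^ 3) * B *
      Real.log ((m : ℝ) + 2) = 12 * 10 ^ 9 * ((r : ℝ) + 2) ^ 3 * B * Real.log ((m : ℝ) + 2) := by
    ring
  rwa [e] at h

end Vale.Agent.P235.Kr
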